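import Mathlib

/-!
Conditional expectations on a finite set with counting measure, given by a key function,
and a variational eigenvector lemma.
-/

set_option autoImplicit false

open Finset

namespace Crest.Agent.R299

variable {Ω : Type} [Fintype Ω] {K K' : Type}

/-- inner product for the counting measure -/
def ip (f g : Ω → ℝ) : ℝ := ∑ x, f x * g x

open Classical in
/-- the fibre of `x` -/
noncomputable def fib (κ : Ω → K) (x : Ω) : Finset Ω := univ.filter fun y => κ y = κ x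

/-- conditional expectation given the key -/
noncomputable def CE (κ : Ω → K) (f : Ω → ℝ) (x : Ω) : ℝ :=
  (∑ y ∈ fib κ x, f y) / (fib κ x).card

/-- measurability with respect to the key -/
def Meas (κ : Ω → K) (f : Ω → ℝ) : Prop := ∀ x y, κ x = κ y → f x = f y

@[simp] lemma mem_fib {κ : Ω → K} {x y : Ω} : y ∈ fib κ x ↔ κ y = κ x := by simp [fib]

lemma fib_eq {κ : Ω → K} {x y : Ω} (h : κ x = κ y) : fib κ x = fib κ y := by
  ext z; simp [h]

lemma card_fib_pos (κ : Ω → K) (x : Ω) : (0 : ℝ) < (fib κ x).card := by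
  exact_mod_cast card_pos.2 ⟨x, by simp⟩

lemma meas_CE (κ : Ω → K) (f : Ω → ℝ) : Meas κ (CE κ f) := fun x y h => by
  simp only [CE, fib_eq h]

lemma CE_congr {κ : Ω → K} {f g : Ω → ℝ} {x : Ω} (h : ∀ y, κ y = κ x → f y = g y) :
    CE κ f x = CE κ g x := by
  unfold CE
  rw [sum_congr rfl fun y hy => h y (mem_fib.1 hy)]

lemma CE_const (κ : Ω → K) (c : ℝ) (x : Ω) : CE κ (fun _ => c) x = c := by
  have := card_fib_pos κ x
  simp only [CE, sum_const, nsmul_eq_mul]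
  field_simp

lemma Meas.CE_eq {κ : Ω → K} {f : Ω → ℝ} (h : Meas κ f) : CE κ f = f := by
  funext x
  rw [CE_congr (g := fun _ => f x) fun y hy => h y x hy, CE_const]

lemma CE_add (κ : Ω → K) (f g : Ω → ℝ) : CE κ (f + g) = CE κ f + CE κ g := by
  funext x; simp [CE, sum_add_distrib, add_div]

lemma CE_sub (κ : Ω → K) (f g : Ω → ℝ) : CE κ (f - g) = CE κ f - CE κ g := by
  funext x; simp [CE, sum_sub_distrib, sub_div]

lemma CE_smul (κ : Ω → K) (c : ℝ) (f : Ω → ℝ) : CE κ (c • f) = c • CE κ f := by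
  funext x; simp [CE, ← mul_sum, mul_div_assoc]

lemma CE_zero (κ : Ω → K) : CE κ (0 : Ω → ℝ) = 0 := by
  funext x; simp [CE]

lemma CE_CE (κ : Ω → K) (f : Ω → ℝ) : CE κ (CE κ f) = CE κ f := (meas_CE κ f).CE_eq

lemma CE_le {κ : Ω → K} {f : Ω → ℝ} {x : Ω} {c : ℝ} (h : ∀ y, κ y = κ x → f y ≤ c) :
    CE κ f x ≤ c := by
  unfold CE
  rw [div_le_iff₀ (card_fib_pos κ x)]
  calc ∑ y ∈ fib κ x, f y ≤ ∑ y ∈ fib κ x, c := sum_le_sum fun y hy => h y (mem_fib.1 hy)
    _ = _ := by simp [mul_comm]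

lemma ip_comm (f g : Ω → ℝ) : ip f g = ip g f := by simp [ip, mul_comm]

lemma ip_add_left (f g h : Ω → ℝ) : ip (f + g) h = ip f h + ip g h := by
  simp [ip, add_mul, sum_add_distrib]

lemma ip_add_right (f g h : Ω → ℝ) : ip f (g + h) = ip f g + ip f h := by
  simp [ip, mul_add, sum_add_distrib]

lemma ip_sub_left (f g h : Ω → ℝ) : ip (f - g) h = ip f h - ip g h := by
  simp [ip, sub_mul, sum_sub_distrib]

lemma ip_sub_right (f g h : Ω → ℝ) : ip f (g - h) = ip f g - ip f h := by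
  simp [ip, mul_sub, sum_sub_distrib]

lemma ip_smul_left (c : ℝ) (f g : Ω → ℝ) : ip (c • f) g = c * ip f g := by
  simp [ip, mul_sum, mul_assoc]

lemma ip_smul_right (c : ℝ) (f g : Ω → ℝ) : ip f (c • g) = c * ip f g := by
  simp [ip, mul_sum, mul_left_comm]

lemma ip_sum_left {ι : Type} (s : Finset ι) (f : ι → Ω → ℝ) (g : Ω → ℝ) :
    ip (∑ i ∈ s, f i) g = ∑ i ∈ s, ip (f i) g := by
  simp only [ip, Finset.sum_apply, sum_mul]
  exact sum_comm

lemma ip_sum_right {ι : Type} (s : Finset ι) (f : Ω → ℝ) (g : ι → Ω → ℝ) :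
    ip f (∑ i ∈ s, g i) = ∑ i ∈ s, ip f (g i) := by
  simp only [ip, Finset.sum_apply, mul_sum]
  exact sum_comm

@[simp] lemma ip_zero_left (g : Ω → ℝ) : ip 0 g = 0 := by simp [ip]

@[simp] lemma ip_zero_right (g : Ω → ℝ) : ip g 0 = 0 := by simp [ip]

lemma ip_self_nonneg (f : Ω → ℝ) : 0 ≤ ip f f := sum_nonneg fun _ _ => mul_self_nonneg _

lemma ip_self_eq_zero {f : Ω → ℝ} (h : ip f f ≤ 0) : f = 0 := by
  have h0 : ip f f = 0 := le_antisymm h (ip_self_nonneg f)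
  funext x
  have := (sum_eq_zero_iff_of_nonneg fun x _ => mul_self_nonneg (f x)).1 h0 x (mem_univ x)
  simpa using this

lemma ip_sq_le (f g : Ω → ℝ) : ip f g ^ 2 ≤ ip f f * ip g g := by
  have := sum_mul_sq_le_sq_mul_sq univ f g
  simpa [ip, sq] using this

lemma ip_CE (κ : Ω → K) (f g : Ω → ℝ) : ip (CE κ f) g = ip f (CE κ g) := by
  classical
  have h : ∀ (f g : Ω → ℝ), ip (CE κ f) g =
      ∑ x, ∑ y, if κ y = κ x then f y * g x / (fib κ x).card else 0 := by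
    intro f g
    refine sum_congr rfl fun x _ => ?_
    rw [CE, div_mul_eq_mul_div, sum_mul, sum_div, ← sum_filter]
    refine sum_congr ?_ fun _ _ => rfl
    ext y; simp
  rw [h, ip_comm f, h, sum_comm]
  refine sum_congr rfl fun x _ => sum_congr rfl fun y _ => ?_
  by_cases hxy : κ x = κ y
  · simp [hxy, fib_eq hxy, mul_comm]
  · simp [hxy, Ne.symm hxy]

/-- tower property -/
lemma CE_CE_of_le {κ : Ω → K} {κ' : Ω → K'} (h : ∀ x y, κ x = κ y → κ' x = κ' y) (f : Ω → ℝ) :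
    CE κ (CE κ' f) = CE κ' f :=
  Meas.CE_eq fun x y hxy => meas_CE κ' f x y (h x y hxy)

lemma eq_of_ip_eq {f g : Ω → ℝ} (h : ∀ k, ip f k = ip g k) : f = g := by
  have := h (f - g)
  rw [← sub_eq_zero, ← ip_sub_left] at this
  exact sub_eq_zero.1 (ip_self_eq_zero this.le)

lemma CE_CE_of_le' {κ : Ω → K} {κ' : Ω → K'} (h : ∀ x y, κ x = κ y → κ' x = κ' y) (f : Ω → ℝ) :
    CE κ' (CE κ f) = CE κ' f :=
  eq_of_ip_eq fun k => by rw [ip_CE, ip_CE, CE_CE_of_le h, ip_CE]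

/-- commutation criterion -/
lemma CE_comm {κ : Ω → K} {κ' : Ω → K'} (h : ∀ f, Meas κ' f → Meas κ' (CE κ f)) (f : Ω → ℝ) :
    CE κ (CE κ' f) = CE κ' (CE κ f) := by
  have h1 : ∀ f, CE κ' (CE κ (CE κ' f)) = CE κ (CE κ' f) := fun f =>
    (h _ (meas_CE κ' f)).CE_eq
  refine eq_of_ip_eq fun k => ?_
  rw [← h1, ip_CE, ip_CE, ip_CE, h1, ip_CE, ip_CE]

/-- transport along a bijection of fibres -/
lemma CE_equiv {Ω' : Type} [Fintype Ω'] {κ : Ω → K} {κ' : Ω' → K'} (e : Ω ≃ Ω') (x : Ω)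
    (h : ∀ y, κ y = κ x ↔ κ' (e y) = κ' (e x)) (f : Ω' → ℝ) :
    CE κ (fun y => f (e y)) x = CE κ' f (e x) := by
  have h1 : (fib κ x).map e.toEmbedding = fib κ' (e x) := by
    ext z
    obtain ⟨y, rfl⟩ := e.surjective z
    simp [h]
  unfold CE
  rw [← h1, sum_map, card_map]
  rfl

lemma CE_invol {κ : Ω → K} (θ : Ω → Ω) (hθ : Function.Involutive θ) (h : ∀ y, κ (θ y) = κ y)
    (f : Ω → ℝ) (x : Ω) : CE κ (fun y => f (θ y)) x = CE κ f x := by
  have := CE_equiv (κ := κ) (κ' := κ) hθ.toPerm x (fun y => by simp [h]) f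
  simp only [Function.Involutive.coe_toPerm] at this
  rw [this]
  exact meas_CE κ f _ _ (h x)

lemma CE_le_of_invol {κ : Ω → K} (θ : Ω → Ω) (hθ : Function.Involutive θ)
    (h : ∀ y, κ (θ y) = κ y) {f : Ω → ℝ} {x : Ω} {c : ℝ}
    (hc : ∀ y, κ y = κ x → f y + f (θ y) ≤ 2 * c) : CE κ f x ≤ c := by
  have h1 := CE_invol θ hθ h f x
  have h2 := congrFun (CE_add κ f (fun y => f (θ y))) x
  have h3 : CE κ (f + fun y => f (θ y)) x ≤ 2 * c := CE_le hc
  rw [h2, Pi.add_apply, h1] at h3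
  linarith

/-- slices of a product -/
lemma CE_prod {Ω' R : Type} [Fintype Ω'] [Fintype R] {κ : Ω → K} {κ' : Ω' → K'}
    (e : Ω ≃ Ω' × R) (h : ∀ x y, κ x = κ y ↔ κ' (e x).1 = κ' (e y).1 ∧ (e x).2 = (e y).2)
    (f : Ω → ℝ) (x : Ω') (r : R) :
    CE κ f (e.symm (x, r)) = CE κ' (fun z => f (e.symm (z, r))) x := by
  have h1 : (fib κ' x).map ⟨fun z => e.symm (z, r), fun a b hab => by simpa using hab⟩ =
      fib κ (e.symm (x, r)) := by
    ext z
    obtain ⟨⟨y, s⟩, rfl⟩ := e.symm.surjective z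
    simp only [mem_map, mem_fib, Function.Embedding.coeFn_mk, EmbeddingLike.apply_eq_iff_eq,
      Prod.mk.injEq, h, Equiv.apply_symm_apply]
    constructor
    · rintro ⟨a, ha, rfl, rfl⟩; exact ⟨ha, rfl⟩
    · rintro ⟨ha, rfl⟩; exact ⟨y, ha, rfl, rfl⟩
  unfold CE
  rw [← h1, sum_map, card_map]
  rfl

lemma ip_prod {Ω' R : Type} [Fintype Ω'] [Fintype R] (e : Ω ≃ Ω' × R) (f g : Ω → ℝ) :
    ip f g = ∑ r, ip (fun z => f (e.symm (z, r))) (fun z => g (e.symm (z, r))) := by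
  unfold ip
  rw [← e.symm.sum_comp, Fintype.sum_prod_type_right]

/-- Variational eigenvector lemma. -/
theorem eigen_lemma (κ : Ω → K) (A : (Ω → ℝ) → (Ω → ℝ)) (hadd : ∀ f g, A (f + g) = A f + A g)
    (hsmul : ∀ (c : ℝ) f, A (c • f) = c • A f) (hsym : ∀ f g, ip (A f) g = ip f (A g)) (δ : ℝ)
    (h : ∀ (g : Ω → ℝ) (μ : ℝ), g ≠ 0 → CE κ g = 0 → Meas κ (A g - μ • g) → δ ≤ μ)
    (g : Ω → ℝ) (hg : CE κ g = 0) : δ * ip g g ≤ ip g (A g) := by
  classical
  let L : (Ω → ℝ) →ₗ[ℝ] (Ω → ℝ) := ⟨⟨A, hadd⟩, hsmul⟩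
  let P : (Ω → ℝ) →ₗ[ℝ] (Ω → ℝ) := ⟨⟨CE κ, CE_add κ⟩, CE_smul κ⟩
  have hLc : Continuous A := L.continuous_of_finiteDimensional
  have hPc : Continuous (CE κ : (Ω → ℝ) → Ω → ℝ) := P.continuous_of_finiteDimensional
  have hipc : Continuous fun k : Ω → ℝ => ip k k := by unfold ip; fun_prop
  have hipA : Continuous fun k : Ω → ℝ => ip k (A k) := by unfold ip; fun_prop
  set S : Set (Ω → ℝ) := {k | CE κ k = 0 ∧ ip k k = 1} with hS
  have hScl : IsClosed S :=
    (isClosed_eq hPc continuous_const).inter (isClosed_eq hipc continuous_const)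
  have hSc : IsCompact S := by
    refine (isCompact_univ_pi fun _ : Ω => isCompact_Icc (a := (-1 : ℝ)) (b := 1)).of_isClosed_subset
      hScl fun k hk x _ => ?_
    have h1 : k x * k x ≤ 1 := by
      rw [← hk.2]
      exact single_le_sum (f := fun x => k x * k x) (fun y _ => mul_self_nonneg _) (mem_univ x)
    constructor <;> nlinarith
  have hnorm : ∀ k : Ω → ℝ, k ≠ 0 → CE κ k = 0 →
      (√(ip k k))⁻¹ • k ∈ S ∧ 0 < ip k k := by
    intro k hk0 hk
    have hpos : 0 < ip k k := lt_of_not_ge fun hle => hk0 (ip_self_eq_zero hle)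
    refine ⟨⟨by rw [CE_smul, hk, smul_zero], ?_⟩, hpos⟩
    rw [ip_smul_left, ip_smul_right, ← mul_assoc, ← mul_inv, Real.mul_self_sqrt hpos.le]
    exact inv_mul_cancel₀ hpos.ne'
  by_cases hg0 : g = 0
  · simp [hg0]
  obtain ⟨g₀, hg₀, hmin⟩ := hSc.exists_isMinOn ⟨_, (hnorm g hg0 hg).1⟩ hipA.continuousOn
  set μ := ip g₀ (A g₀) with hμ
  have hall : ∀ k : Ω → ℝ, CE κ k = 0 → μ * ip k k ≤ ip k (A k) := by
    intro k hk
    by_cases hk0 : k = 0
    · simp [hk0]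
    obtain ⟨h1, h2⟩ := hnorm k hk0 hk
    have h3 : μ ≤ ip ((√(ip k k))⁻¹ • k) (A ((√(ip k k))⁻¹ • k)) := hmin h1
    rw [hsmul, ip_smul_left, ip_smul_right, ← mul_assoc, ← mul_inv, Real.mul_self_sqrt h2.le,
      inv_mul_eq_div, le_div_iff₀ h2] at h3
    exact h3
  set r := A g₀ - μ • g₀ with hr
  set w := r - CE κ r with hw
  have hw0 : CE κ w = 0 := by rw [hw, CE_sub, CE_CE, sub_self]
  have hww : ip w r = ip w w := by
    have : ip w (CE κ r) = 0 := by rw [← ip_CE, hw0, ip_zero_left]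
    conv_rhs => rw [hw, ip_sub_right, ← hw, this, sub_zero]
  have hq : ∀ t : ℝ, 0 ≤ (ip w (A w) - μ * ip w w) * (t * t) + 2 * ip w w * t + 0 := by
    intro t
    have h1 := hall (g₀ + t • w) (by rw [CE_add, CE_smul, hg₀.1, hw0]; simp)
    have h2 : ip g₀ (A w) = ip w (A g₀) := by rw [← hsym, ip_comm]
    have h3 : ip w (A g₀) = ip w w + μ * ip w g₀ := by
      rw [← hww, hr, ip_sub_right, ip_smul_right]; ring
    simp only [hadd, hsmul, ip_add_left, ip_add_right, ip_smul_left, ip_smul_right, hg₀.2,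
      ← hμ, h2, h3, ip_comm g₀ w] at h1
    nlinarith
  have hd := discrim_le_zero hq
  have hwz : w = 0 := by
    refine ip_self_eq_zero ?_
    simp only [discrim, mul_zero, sub_zero] at hd
    nlinarith [ip_self_nonneg w]
  have hmeas : Meas κ r := by
    have : r = CE κ r := sub_eq_zero.1 hwz
    rw [this]; exact meas_CE κ r
  have hg₀0 : g₀ ≠ 0 := by
    intro h0
    have := hg₀.2
    simp [h0] at this
  have hδ := h g₀ μ hg₀0 hg₀.1 hmeas
  exact le_trans (mul_le_mul_of_nonneg_right hδ (ip_self_nonneg g)) (hall g hg)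

end Crest.Agent.R299
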