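import Mathlib

/-!
From a Poincaré inequality to mixing for a lazy symmetric chain.
-/

set_option autoImplicit false

open Finset

namespace Crest.Agent.R299

variable {X : Type} [Fintype X] [DecidableEq X]

/-- a lazy symmetric stochastic matrix preserving `Ω` -/
structure Lazy (K : Matrix X X ℝ) (Ω : Finset X) : Prop where
  symm : ∀ x y, K x y = K y x
  lazy : ∀ x y, (if x = y then 1 / 2 else 0) ≤ K x y
  row : ∀ x, ∑ y, K x y = 1
  closed : ∀ x ∈ Ω, ∀ y, y ∉ Ω → K x y = 0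

variable {K : Matrix X X ℝ} {Ω : Finset X}

lemma Lazy.row' (h : Lazy K Ω) {x : X} (hx : x ∈ Ω) : ∑ y ∈ Ω, K x y = 1 := by
  rw [← h.row x]
  exact sum_subset (subset_univ _) fun y _ hy => h.closed x hx y hy

lemma Lazy.dirichlet (h : Lazy K Ω) (f : X → ℝ) :
    ∑ x ∈ Ω, f x * (f x - ∑ y ∈ Ω, K x y * f y) =
      (∑ x ∈ Ω, ∑ y ∈ Ω, K x y * (f x - f y) ^ 2) / 2 := by
  have h1 : ∑ x ∈ Ω, ∑ y ∈ Ω, K x y * f x ^ 2 = ∑ x ∈ Ω, f x ^ 2 :=
    sum_congr rfl fun x hx => by rw [← sum_mul, h.row' hx, one_mul]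
  have h2 : ∑ x ∈ Ω, ∑ y ∈ Ω, K x y * f y ^ 2 = ∑ x ∈ Ω, f x ^ 2 := by
    rw [sum_comm, ← h1]
    exact sum_congr rfl fun x _ => sum_congr rfl fun y _ => by rw [h.symm]
  have h3 : ∑ x ∈ Ω, ∑ y ∈ Ω, K x y * (f x - f y) ^ 2 = ∑ x ∈ Ω, ∑ y ∈ Ω, K x y * f x ^ 2 +
      ∑ x ∈ Ω, ∑ y ∈ Ω, K x y * f y ^ 2 - 2 * ∑ x ∈ Ω, f x * ∑ y ∈ Ω, K x y * f y := by
    simp only [mul_sum, ← sum_add_distrib, ← sum_sub_distrib]
    exact sum_congr rfl fun x _ => sum_congr rfl fun y _ => by ring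
  rw [h3, h1, h2]
  simp only [mul_sub, sum_sub_distrib, sq]
  ring

lemma Lazy.sq_le (h : Lazy K Ω) (g : X → ℝ) :
    ∑ x ∈ Ω, (∑ y ∈ Ω, K x y * g y) ^ 2 ≤ ∑ x ∈ Ω, g x * ∑ y ∈ Ω, K x y * g y := by
  set L : X → X → ℝ := fun x y => 2 * K x y - if x = y then 1 else 0 with hL
  have hL0 : ∀ x y, 0 ≤ L x y := fun x y => by
    have := h.lazy x y
    simp only [hL]
    split_ifs at this ⊢ <;> linarith
  have hL1 : ∀ x ∈ Ω, ∑ y ∈ Ω, L x y = 1 := fun x hx => by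
    simp only [hL, sum_sub_distrib, ← mul_sum, h.row' hx, sum_ite_eq, hx, if_true]
    norm_num
  have hLs : ∀ x y, L x y = L y x := fun x y => by simp only [hL, h.symm x y, eq_comm (a := x)]
  have h1 : ∀ x ∈ Ω, ∑ y ∈ Ω, K x y * g y = (g x + ∑ y ∈ Ω, L x y * g y) / 2 := fun x hx => by
    simp only [hL, sub_mul, sum_sub_distrib, ite_mul, one_mul, zero_mul, sum_ite_eq, hx, if_true,
      mul_assoc, ← mul_sum]
    ring
  have h2 : ∀ x ∈ Ω, (∑ y ∈ Ω, L x y * g y) ^ 2 ≤ ∑ y ∈ Ω, L x y * g y ^ 2 := fun x hx => by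
    have h3 : 0 ≤ ∑ y ∈ Ω, L x y * (g y - ∑ z ∈ Ω, L x z * g z) ^ 2 :=
      sum_nonneg fun y _ => mul_nonneg (hL0 x y) (sq_nonneg _)
    set m := ∑ z ∈ Ω, L x z * g z with hm
    have h4 : ∑ y ∈ Ω, L x y * (g y - m) ^ 2 = ∑ y ∈ Ω, L x y * g y ^ 2 -
        2 * m * ∑ y ∈ Ω, L x y * g y + m ^ 2 * ∑ y ∈ Ω, L x y := by
      simp only [mul_sum, ← sum_add_distrib, ← sum_sub_distrib]
      exact sum_congr rfl fun y _ => by ring
    rw [h4, hL1 x hx, ← hm] at h3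
    nlinarith
  have h3 : ∑ x ∈ Ω, (∑ y ∈ Ω, L x y * g y) ^ 2 ≤ ∑ x ∈ Ω, g x ^ 2 := by
    refine (sum_le_sum h2).trans (le_of_eq ?_)
    rw [sum_comm]
    refine sum_congr rfl fun y hy => ?_
    rw [← sum_mul, sum_congr rfl fun x _ => hLs x y, hL1 y hy, one_mul]
  rw [sum_congr rfl fun x hx => by rw [h1 x hx], sum_congr rfl (s₂ := Ω)
    (f := fun x => g x * ∑ y ∈ Ω, K x y * g y) fun x hx => by rw [h1 x hx]]
  have h4 : ∑ x ∈ Ω, g x * ((g x + ∑ y ∈ Ω, L x y * g y) / 2) -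
      ∑ x ∈ Ω, ((g x + ∑ y ∈ Ω, L x y * g y) / 2) ^ 2 =
      (∑ x ∈ Ω, g x ^ 2 - ∑ x ∈ Ω, (∑ y ∈ Ω, L x y * g y) ^ 2) / 4 := by
    rw [← sum_sub_distrib, ← sum_sub_distrib, sum_div]
    exact sum_congr rfl fun x _ => by ring
  linarith

lemma Lazy.pow_closed (h : Lazy K Ω) {x : X} (hx : x ∈ Ω) (t : ℕ) :
    ∀ y, y ∉ Ω → (K ^ t) x y = 0 := by
  induction t with
  | zero => intro y hy; rw [pow_zero, Matrix.one_apply_ne (show x ≠ y from fun h => hy (h ▸ hx))]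
  | succ t ih =>
    intro y hy
    rw [pow_succ, Matrix.mul_apply]
    refine sum_eq_zero fun z _ => ?_
    by_cases hz : z ∈ Ω
    · rw [h.closed z hz y hy, mul_zero]
    · rw [ih z hz, zero_mul]

lemma Lazy.decay (h : Lazy K Ω) {c : ℝ} (hc : 1 ≤ c)
    (hP : ∀ f : X → ℝ, (Ω.card : ℝ) * (∑ x ∈ Ω, f x ^ 2) - (∑ x ∈ Ω, f x) ^ 2 ≤
      c * Ω.card * ∑ x ∈ Ω, f x * (f x - ∑ y ∈ Ω, K x y * f y))
    {x : X} (hx : x ∈ Ω) (t : ℕ) :
    ∑ y ∈ Ω, ((K ^ t) x y - 1 / Ω.card) = 0 ∧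
      ∑ y ∈ Ω, ((K ^ t) x y - 1 / Ω.card) ^ 2 ≤ (1 - 1 / c) ^ t := by
  have hΩ : (0 : ℝ) < Ω.card := by exact_mod_cast card_pos.2 ⟨x, hx⟩
  induction t with
  | zero =>
    simp only [pow_zero, Matrix.one_apply]
    constructor
    · simp only [sum_sub_distrib, sum_ite_eq, hx, if_true, sum_const, nsmul_eq_mul]
      field_simp
      ring
    · have : ∀ y, ((if x = y then 1 else 0) - 1 / (Ω.card : ℝ)) ^ 2 =
          (if x = y then 1 - 2 / (Ω.card : ℝ) else 0) + 1 / (Ω.card : ℝ) ^ 2 := fun y => by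
        split_ifs <;> ring
      simp only [this, sum_add_distrib, sum_ite_eq, hx, if_true, sum_const, nsmul_eq_mul]
      have h1 : (Ω.card : ℝ) * (1 / (Ω.card : ℝ) ^ 2) = 1 / Ω.card := by field_simp
      have h2 : 0 < 1 / (Ω.card : ℝ) := by positivity
      have h3 : 2 / (Ω.card : ℝ) = 2 * (1 / Ω.card) := by ring
      rw [h1, h3]
      linarith
  | succ t ih =>
    set g : X → ℝ := fun y => (K ^ t) x y - 1 / Ω.card with hg
    have h1 : ∀ y ∈ Ω, (K ^ (t + 1)) x y - 1 / Ω.card = ∑ z ∈ Ω, K y z * g z := by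
      intro y hy
      simp only [hg, mul_sub, sum_sub_distrib, ← sum_mul, h.row' hy, one_mul]
      rw [pow_succ, Matrix.mul_apply, ← sum_subset (subset_univ Ω) fun z _ hz => by
        rw [h.pow_closed hx t z hz, zero_mul]]
      congr 1
      exact sum_congr rfl fun z _ => by rw [h.symm, mul_comm]
    constructor
    · rw [sum_congr rfl h1, sum_comm, ← ih.1]
      refine sum_congr rfl fun z hz => ?_
      rw [← sum_mul, sum_congr rfl fun y _ => h.symm y z, h.row' hz, one_mul]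
    · rw [sum_congr rfl fun y hy => by rw [h1 y hy]]
      refine (h.sq_le g).trans ?_
      have h2 := hP g
      rw [ih.1, mul_right_comm, mul_comm _ (Ω.card : ℝ)] at h2
      have h3 : ∑ x ∈ Ω, g x ^ 2 ≤ c * ∑ x ∈ Ω, g x * (g x - ∑ y ∈ Ω, K x y * g y) :=
        le_of_mul_le_mul_left (by simpa using h2) hΩ
      simp only [mul_sub, sum_sub_distrib, ← sq] at h3
      have hc0 : 0 < c := by linarith
      have h4 : ∑ x ∈ Ω, g x * ∑ y ∈ Ω, K x y * g y ≤ (1 - 1 / c) * ∑ x ∈ Ω, g x ^ 2 := by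
        rw [sub_mul, one_mul, one_div, inv_mul_eq_div, le_sub_comm, div_le_iff₀ hc0]
        linarith
      refine h4.trans ?_
      rw [pow_succ']
      refine mul_le_mul_of_nonneg_left ih.2 ?_
      rw [sub_nonneg, div_le_one hc0]
      exact hc

lemma Lazy.tv (h : Lazy K Ω) {c : ℝ} (hc : 1 ≤ c)
    (hP : ∀ f : X → ℝ, (Ω.card : ℝ) * (∑ x ∈ Ω, f x ^ 2) - (∑ x ∈ Ω, f x) ^ 2 ≤
      c * Ω.card * ∑ x ∈ Ω, f x * (f x - ∑ y ∈ Ω, K x y * f y))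
    {x : X} (hx : x ∈ Ω) (t : ℕ) (ht : (Ω.card : ℝ) * (1 - 1 / c) ^ t ≤ 1 / 4) :
    (∑ y, |(K ^ t) x y - if y ∈ Ω then 1 / (Ω.card : ℝ) else 0|) / 2 ≤ 1 / 4 := by
  rw [← sum_subset (subset_univ Ω) fun y _ hy => by simp [h.pow_closed hx t y hy, hy],
    sum_congr rfl fun y hy => by rw [if_pos hy]]
  have h1 := sq_sum_le_card_mul_sum_sq (s := Ω) (f := fun y => |(K ^ t) x y - 1 / (Ω.card : ℝ)|)
  simp only [sq_abs] at h1
  have h2 := mul_le_mul_of_nonneg_left (h.decay hc hP hx t).2 (Nat.cast_nonneg Ω.card)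
  have h3 : (∑ y ∈ Ω, |(K ^ t) x y - 1 / (Ω.card : ℝ)|) ^ 2 ≤ (1 / 2) ^ 2 := by linarith
  have h4 := abs_le_of_sq_le_sq' h3 (by norm_num)
  linarith [h4.2]

end Crest.Agent.R299
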