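import Mathlib
import Crest.Agent.R299.CE

/-!
The three-row inequality: on 0/1 matrices with three rows and fixed margins, the three
conditional expectations given one row sum to at most `2` off the constants.
-/

set_option autoImplicit false

open Finset

namespace Crest.Agent.R299

/-- a Boolean as an integer -/
def bi (b : Bool) : ℤ := if b then 1 else 0

/-- column sum -/
def s3 (v : Fin 3 → Bool) : ℤ := bi (v 0) + bi (v 1) + bi (v 2)

/-- the column has a single one, in row `a` -/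
def isLet (v : Fin 3 → Bool) (a : Fin 3) : Prop := v = fun b => decide (b = a)

/-- the column has a single zero, in row `a` -/
def isHol (v : Fin 3 → Bool) (a : Fin 3) : Prop := v = fun b => decide (b ≠ a)

instance (v : Fin 3 → Bool) (a : Fin 3) : Decidable (isLet v a) := by
  unfold isLet; infer_instance

instance (v : Fin 3 → Bool) (a : Fin 3) : Decidable (isHol v a) := by
  unfold isHol; infer_instance

lemma col_id : ∀ (v : Fin 3 → Bool) (a : Fin 3), bi (v a) =
    (if isLet v a then 1 else 0) - (if isHol v a then 1 else 0) + (if 2 ≤ s3 v then 1 else 0) := by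
  decide

lemma hol_sum : ∀ (v : Fin 3 → Bool) (a : Fin 3), ((if isHol v a then 1 else 0) +
    (if isHol v (a + 1) then 1 else 0) + (if isHol v (a + 2) then 1 else 0) : ℤ) =
      if s3 v = 2 then 1 else 0 := by
  decide

lemma let_spec : ∀ (v : Fin 3 → Bool) (a : Fin 3), isLet v a ↔ s3 v = 1 ∧ v a = true := by decide

lemma hol_spec : ∀ (v : Fin 3 → Bool) (a : Fin 3), isHol v a ↔ s3 v = 2 ∧ v a = false := by decide

lemma type_of_ne : ∀ (v w : Fin 3 → Bool) (a : Fin 3), s3 v = s3 w → v a ≠ w a →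
    s3 v = 1 ∨ s3 v = 2 := by decide

lemma other_row : ∀ (v w : Fin 3 → Bool) (a : Fin 3), s3 v = s3 w → v a ≠ w a →
    v (a + 1) = w (a + 1) ∨ v (a + 2) = w (a + 2) := by decide

lemma s3_swap : ∀ (v : Fin 3 → Bool) (a a' : Fin 3), s3 (v ∘ Equiv.swap a a') = s3 v := by decide

lemma let_swap : ∀ (v : Fin 3 → Bool) (a a' : Fin 3), isLet v a → isLet (v ∘ Equiv.swap a a') a' := by
  decide

lemma hol_swap : ∀ (v : Fin 3 → Bool) (a a' : Fin 3), isHol v a → isHol (v ∘ Equiv.swap a a') a' := by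
  decide

lemma hol_unique : ∀ (v : Fin 3 → Bool) (a a' : Fin 3), isHol v a → (isHol v a' ↔ a' = a) := by
  decide

lemma let_not_hol : ∀ (v : Fin 3 → Bool) (a a' : Fin 3), isLet v a → ¬ isHol v a' := by decide

lemma let_hol_bi : ∀ (v w : Fin 3 → Bool) (a b : Fin 3), isLet v a → isHol w a →
    bi (v b) + bi (w b) = 1 := by decide

variable {C : Type} [Fintype C] [DecidableEq C]

/-- column sums -/
def cs (x : C → Fin 3 → Bool) (c : C) : ℤ := s3 (x c)

/-- row sums -/
def rs (x : C → Fin 3 → Bool) (a : Fin 3) : ℤ := ∑ c, bi (x c a)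

/-- margins -/
def kE (x : C → Fin 3 → Bool) : (C → ℤ) × (Fin 3 → ℤ) := (cs x, rs x)

/-- margins and one row -/
def kR (a : Fin 3) (x : C → Fin 3 → Bool) : ((C → ℤ) × (Fin 3 → ℤ)) × (C → Bool) :=
  (kE x, fun c => x c a)

/-- number of letters -/
def pp (a : Fin 3) (x : C → Fin 3 → Bool) : ℤ := ∑ c, if isLet (x c) a then 1 else 0

/-- number of holes -/
def qq (a : Fin 3) (x : C → Fin 3 → Bool) : ℤ := ∑ c, if isHol (x c) a then 1 else 0

/-- margins and the number of holes in one row -/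
def kq (a : Fin 3) (x : C → Fin 3 → Bool) : ((C → ℤ) × (Fin 3 → ℤ)) × ℤ := (kE x, qq a x)

variable {x y : C → Fin 3 → Bool} {a a' : Fin 3}

omit [DecidableEq C] in
lemma kE_eq_iff : kE x = kE y ↔ (∀ c, s3 (x c) = s3 (y c)) ∧ ∀ a, rs x a = rs y a := by
  simp [kE, funext_iff, cs]

omit [DecidableEq C] in
lemma kR_eq_iff : kR a x = kR a y ↔ kE x = kE y ∧ ∀ c, x c a = y c a := by
  simp [kR, funext_iff]

omit [DecidableEq C] in
lemma kq_eq_iff : kq a x = kq a y ↔ kE x = kE y ∧ qq a x = qq a y := by simp [kq]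

omit [DecidableEq C] in
lemma pp_nonneg (a : Fin 3) (x : C → Fin 3 → Bool) : 0 ≤ pp a x :=
  sum_nonneg fun _ _ => by split_ifs <;> norm_num

omit [DecidableEq C] in
lemma qq_nonneg (a : Fin 3) (x : C → Fin 3 → Bool) : 0 ≤ qq a x :=
  sum_nonneg fun _ _ => by split_ifs <;> norm_num

omit [DecidableEq C] in
lemma pp_sub_qq (h : kE x = kE y) (a : Fin 3) : pp a x - qq a x = pp a y - qq a y := by
  obtain ⟨h1, h2⟩ := kE_eq_iff.1 h
  have := h2 a
  simp only [rs, col_id, sum_add_distrib, sum_sub_distrib, h1] at this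
  unfold pp qq
  linarith

omit [DecidableEq C] in
lemma qq_sum (h : kE x = kE y) (a : Fin 3) :
    qq a x + qq (a + 1) x + qq (a + 2) x = qq a y + qq (a + 1) y + qq (a + 2) y := by
  obtain ⟨h1, -⟩ := kE_eq_iff.1 h
  simp only [qq, ← sum_add_distrib, hol_sum, h1]

omit [DecidableEq C] in
lemma kq_of_kR (h : kR a x = kR a y) : kq a x = kq a y := by
  obtain ⟨h1, h2⟩ := kR_eq_iff.1 h
  refine kq_eq_iff.2 ⟨h1, sum_congr rfl fun c _ => ?_⟩
  simp only [hol_spec, (kE_eq_iff.1 h1).1 c, h2 c]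

/-! ### column swaps -/

/-- swap two columns -/
def csw (c c' : C) : (C → Fin 3 → Bool) ≃ (C → Fin 3 → Bool) :=
  Function.Involutive.toPerm (fun x => x ∘ Equiv.swap c c') fun x => by
    funext d; simp

lemma csw_apply (c c' : C) (x : C → Fin 3 → Bool) (d : C) :
    csw c c' x d = x (Equiv.swap c c' d) := rfl

lemma csw_csw (c c' : C) (x : C → Fin 3 → Bool) : csw c c' (csw c c' x) = x := by
  funext d; simp [csw_apply]

lemma rs_csw (c c' : C) (x : C → Fin 3 → Bool) (a : Fin 3) : rs (csw c c' x) a = rs x a :=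
  Equiv.sum_comp (Equiv.swap c c') fun d => bi (x d a)

lemma kR_csw_of_eq {c c' : C} (h : kR a x = kR a y) : kR a (csw c c' x) = kR a (csw c c' y) := by
  obtain ⟨h1, h2⟩ := kR_eq_iff.1 h
  obtain ⟨h3, h4⟩ := kE_eq_iff.1 h1
  exact kR_eq_iff.2 ⟨kE_eq_iff.2 ⟨fun d => h3 _, fun b => by rw [rs_csw, rs_csw, h4]⟩,
    fun d => h2 _⟩

lemma kE_csw {c c' : C} (h : s3 (x c) = s3 (x c')) : kE (csw c c' x) = kE x := by
  refine kE_eq_iff.2 ⟨fun d => ?_, rs_csw c c' x⟩
  rw [csw_apply, Equiv.swap_apply_def]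
  split_ifs with h1 h2
  · rw [h1, h]
  · rw [h2, h]
  · rfl

lemma kR_csw {c c' : C} (h : s3 (x c) = s3 (x c')) (h' : x c a = x c' a) :
    kR a (csw c c' x) = kR a x := by
  refine kR_eq_iff.2 ⟨kE_csw h, fun d => ?_⟩
  rw [csw_apply, Equiv.swap_apply_def]
  split_ifs with h1 h2
  · rw [h1, h']
  · rw [h2, h']
  · rfl

lemma qq_csw (c c' : C) (x : C → Fin 3 → Bool) (a : Fin 3) : qq a (csw c c' x) = qq a x :=
  Equiv.sum_comp (Equiv.swap c c') fun d => if isHol (x d) a then (1 : ℤ) else 0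

/-- Stage 1 of the maximum principle. -/
lemma stage1 (F : Fin 3 → (C → Fin 3 → Bool) → ℝ) (hF : ∀ a, Meas (kR a) (F a)) {Λ : ℝ}
    (hΛ : 2 < Λ) (heq : ∀ a, (Λ - 1) • F a = CE (kR a) (F (a + 1) + F (a + 2)))
    (a : Fin 3) (x : C → Fin 3 → Bool) (c c' : C) (hc : s3 (x c) = s3 (x c')) :
    F a (csw c c' x) = F a x := by
  classical
  have hneg : ∀ (a : Fin 3) (x : C → Fin 3 → Bool) (c c' : C), s3 (x c) = s3 (x c') →
      F a x - F a (csw c c' x) ≤ 0 := by
    by_contra hcon
    push Not at hcon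
    obtain ⟨a₀, x₀, c₀, c₀', h₀, hpos⟩ := hcon
    obtain ⟨⟨a, x, c, c'⟩, hmem, hmax⟩ := exists_max_image
      (univ.filter fun t : Fin 3 × (C → Fin 3 → Bool) × C × C => s3 (t.2.1 t.2.2.1) = s3 (t.2.1 t.2.2.2))
      (fun t => F t.1 t.2.1 - F t.1 (csw t.2.2.1 t.2.2.2 t.2.1)) ⟨(a₀, x₀, c₀, c₀'), by simpa using h₀⟩
    simp only [mem_filter, mem_univ, true_and] at hmem hmax
    set G := F a x - F a (csw c c' x) with hG
    have hG0 : 0 < G := lt_of_lt_of_le hpos (hmax (a₀, x₀, c₀, c₀') h₀)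
    have hne : x c a ≠ x c' a := by
      intro h
      rw [hF a _ _ (kR_csw hmem h), sub_self] at hG
      linarith
    have h1 : (Λ - 1) * G = CE (kR a) ((F (a + 1) + F (a + 2)) -
        fun y => (F (a + 1) + F (a + 2)) (csw c c' y)) x := by
      rw [CE_sub, Pi.sub_apply, CE_equiv (κ' := kR a) (csw c c') x, ← heq a, hG, mul_sub]
      · rfl
      · intro y
        refine ⟨kR_csw_of_eq, fun h => ?_⟩
        have := kR_csw_of_eq (c := c) (c' := c') h
        rwa [csw_csw, csw_csw] at this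
    have h2 : CE (kR a) ((F (a + 1) + F (a + 2)) -
        fun y => (F (a + 1) + F (a + 2)) (csw c c' y)) x ≤ G := by
      refine CE_le fun y hy => ?_
      obtain ⟨h3, h4⟩ := kR_eq_iff.1 hy
      have h5 : s3 (y c) = s3 (y c') := by
        rw [(kE_eq_iff.1 h3).1 c, (kE_eq_iff.1 h3).1 c', hmem]
      have h6 := hmax (a + 1, y, c, c') h5
      have h7 := hmax (a + 2, y, c, c') h5
      simp only [Pi.sub_apply, Pi.add_apply] at h6 h7 ⊢
      rcases other_row _ _ a h5 (by rw [h4, h4]; exact hne) with h | h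
      · rw [hF _ _ _ (kR_csw h5 h)]; linarith
      · rw [hF (a + 2) _ _ (kR_csw h5 h)]; linarith
    nlinarith
  have h1 := hneg a x c c' hc
  have h2 := hneg a (csw c c' x) c c' (by simp [csw_apply, hc])
  rw [csw_csw] at h2
  linarith

omit [DecidableEq C] in
lemma exists_opposite {p q : C → Prop} [DecidablePred p] [DecidablePred q]
    (h : (∑ c, if p c then 1 else 0 : ℤ) = ∑ c, if q c then 1 else 0) {c : C} (hp : p c)
    (hq : ¬ q c) : ∃ c', ¬ p c' ∧ q c' := by
  by_contra hcon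
  push Not at hcon
  have : (∑ c, if q c then 1 else 0 : ℤ) < ∑ c, if p c then 1 else 0 := by
    refine sum_lt_sum (fun d _ => ?_) ⟨c, mem_univ c, by simp [hp, hq]⟩
    by_cases h1 : p d
    · simp only [h1, if_true]; split_ifs <;> norm_num
    · simp [h1, hcon d h1]
  omega

/-- a row function invariant under same-type column swaps depends only on the hole count -/
lemma meas_kq {f : (C → Fin 3 → Bool) → ℝ} (hf : Meas (kR a) f)
    (hsw : ∀ x c c', s3 (x c) = s3 (x c') → f (csw c c' x) = f x) : Meas (kq a) f := by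
  intro x y hxy
  induction hm : (univ.filter fun c => x c a ≠ y c a).card using Nat.strong_induction_on
    generalizing x with
  | _ m ih =>
  obtain ⟨h1, h2⟩ := kq_eq_iff.1 hxy
  have hs := (kE_eq_iff.1 h1).1
  by_cases hall : ∀ c, x c a = y c a
  · exact hf x y (kR_eq_iff.2 ⟨h1, hall⟩)
  push Not at hall
  obtain ⟨c, hc⟩ := hall
  have hp : pp a x = pp a y := by linarith [pp_sub_qq h1 a]
  have hex : ∃ c', s3 (x c) = s3 (x c') ∧ x c' a = y c a ∧ x c' a ≠ y c' a := by
    rcases type_of_ne _ _ a (hs c) hc with ht | ht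
    · cases hx : x c a
      · obtain ⟨c', h3, h4⟩ := exists_opposite (c := c) hp.symm
          (by rw [let_spec, ← hs]; simp_all) (by simp [let_spec, hx])
        rw [let_spec] at h3 h4
        exact ⟨c', by rw [ht, h4.1], by simp_all, by simp_all⟩
      · obtain ⟨c', h3, h4⟩ := exists_opposite (c := c) hp
          (by rw [let_spec]; simp_all) (by simp_all [let_spec])
        rw [let_spec] at h3 h4
        exact ⟨c', by rw [ht, hs, h4.1], by simp_all, by simp_all⟩
    · cases hx : x c a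
      · obtain ⟨c', h3, h4⟩ := exists_opposite (c := c) h2
          (by rw [hol_spec]; simp_all) (by simp_all [hol_spec])
        rw [hol_spec] at h3 h4
        exact ⟨c', by rw [ht, hs, h4.1], by simp_all, by simp_all⟩
      · obtain ⟨c', h3, h4⟩ := exists_opposite (c := c) h2.symm
          (by rw [hol_spec, ← hs]; simp_all) (by simp [hol_spec, hx])
        rw [hol_spec] at h3 h4
        exact ⟨c', by rw [ht, h4.1], by simp_all, by simp_all⟩
  obtain ⟨c', h3, h4, h5⟩ := hex
  rw [← hsw x c c' h3]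
  refine ih _ ?_ (csw c c' x) (kq_eq_iff.2 ⟨(kE_csw h3).trans h1, (qq_csw c c' x a).trans h2⟩) rfl
  rw [← hm]
  refine card_lt_card ⟨fun d hd => ?_, fun hsub => ?_⟩
  · simp only [mem_filter, mem_univ, true_and, csw_apply, Equiv.swap_apply_def] at hd ⊢
    split_ifs at hd with h6 h7
    · rw [h6]; exact hc
    · rw [h7]; exact h5
    · exact hd
  · have := hsub (show c ∈ _ by simpa using hc)
    simp [csw_apply, h4] at this

end Crest.Agent.R299
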