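import Mathlib
import Crest.Agent.R299.Three

/-!
Graphs as symmetric Boolean matrices, switches, and the keys of the pair heat baths.
-/

set_option autoImplicit false
set_option linter.unusedSectionVars false

open Finset

namespace Crest.Agent.R299

/-- simple graphs as symmetric irreflexive Boolean matrices -/
structure Gr (V : Type) : Type where
  /-- adjacency -/
  adj : V → V → Bool
  symm : ∀ a b, adj a b = adj b a
  irr : ∀ a, adj a a = false

attribute [simp] Gr.irr

lemma Gr.ext {V : Type} {A B : Gr V} (h : ∀ a b, A.1 a b = B.1 a b) : A = B := by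
  cases A; cases B
  congr 1
  exact funext fun a => funext fun b => h a b

variable {V : Type} [Fintype V] [DecidableEq V]

noncomputable instance : Fintype (Gr V) :=
  Fintype.ofInjective (fun A : Gr V => A.1) fun _ _ h => Gr.ext fun a b => congrFun (congrFun h a) b

/-- degree -/
def dg (A : Gr V) (a : V) : ℤ := ∑ b, bi (A.1 a b)

/-- exchange `x` and `y` in the adjacencies to the vertices of `S` -/
def op (S : Finset V) (x y : V) (A : Gr V) : Gr V :=
  ⟨fun a b => A.1 (if b ∈ S then Equiv.swap x y a else a) (if a ∈ S then Equiv.swap x y b else b),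
    fun _ _ => A.symm _ _, fun _ => A.irr _⟩

variable {S : Finset V} {u v x y a b c c' i j : V} {A B : Gr V}

lemma swap_of_mem (hx : x ∉ S) (hy : y ∉ S) (ha : a ∈ S) : Equiv.swap x y a = a :=
  Equiv.swap_apply_of_ne_of_ne (fun h => hx (h ▸ ha)) (fun h => hy (h ▸ ha))

lemma swap_mem_iff (hx : x ∉ S) (hy : y ∉ S) (a : V) : Equiv.swap x y a ∈ S ↔ a ∈ S := by
  rw [Equiv.swap_apply_def]
  split_ifs with h1 h2
  · simp [h1, hx, hy]
  · simp [h2, hx, hy]
  · rfl

lemma op_of_mem (hx : x ∉ S) (hy : y ∉ S) (ha : a ∈ S) (A : Gr V) (b : V) :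
    (op S x y A).1 a b = A.1 a (Equiv.swap x y b) := by
  simp [op, ha, swap_of_mem hx hy ha]

lemma op_of_notMem (ha : a ∉ S) (A : Gr V) (b : V) :
    (op S x y A).1 a b = A.1 (if b ∈ S then Equiv.swap x y a else a) b := by
  simp [op, ha]

lemma op_of_not (ha : a ∉ S) (hb : b ∉ S) (A : Gr V) : (op S x y A).1 a b = A.1 a b := by
  simp [op, ha, hb]

lemma op_of_ne (hax : a ≠ x) (hay : a ≠ y) (hbx : b ≠ x) (hby : b ≠ y) (A : Gr V) :
    (op S x y A).1 a b = A.1 a b := by
  simp [op, Equiv.swap_apply_of_ne_of_ne hax hay, Equiv.swap_apply_of_ne_of_ne hbx hby]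

lemma op_op (hx : x ∉ S) (hy : y ∉ S) (A : Gr V) : op S x y (op S x y A) = A := by
  refine Gr.ext fun a b => ?_
  by_cases ha : a ∈ S
  · rw [op_of_mem hx hy ha, op_of_mem hx hy ha, Equiv.swap_apply_self]
  · by_cases hb : b ∈ S
    · rw [Gr.symm, op_of_mem hx hy hb, op_of_mem hx hy hb, Equiv.swap_apply_self, Gr.symm]
    · rw [op_of_not ha hb, op_of_not ha hb]

lemma op_comm (S : Finset V) (x y : V) (A : Gr V) : op S x y A = op S y x A := by
  refine Gr.ext fun a b => ?_
  simp only [op, Equiv.swap_comm x y]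

lemma dg_op_of_ne (hx : x ∉ S) (hy : y ∉ S) (hax : a ≠ x) (hay : a ≠ y) (A : Gr V) :
    dg (op S x y A) a = dg A a := by
  unfold dg
  by_cases ha : a ∈ S
  · simp only [op_of_mem hx hy ha]
    exact Equiv.sum_comp (Equiv.swap x y) fun b => bi (A.1 a b)
  · simp only [op_of_notMem ha, Equiv.swap_apply_of_ne_of_ne hax hay, ite_self]

lemma dg_op_left (hx : x ∉ S) (A : Gr V) :
    dg (op S x y A) x = dg A x + ∑ b ∈ S, (bi (A.1 y b) - bi (A.1 x b)) := by
  unfold dg
  simp only [op_of_notMem hx, Equiv.swap_apply_left]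
  rw [← Finset.sum_ite_mem_eq S, ← sum_add_distrib]
  refine sum_congr rfl fun b _ => ?_
  split_ifs <;> simp

lemma dg_op_right (hy : y ∉ S) (A : Gr V) :
    dg (op S x y A) y = dg A y + ∑ b ∈ S, (bi (A.1 x b) - bi (A.1 y b)) := by
  rw [op_comm, dg_op_left hy]

lemma dg_op (hx : x ∉ S) (hy : y ∉ S)
    (h : ∑ b ∈ S, bi (A.1 x b) = ∑ b ∈ S, bi (A.1 y b)) : dg (op S x y A) = dg A := by
  funext a
  by_cases h1 : a = x
  · rw [h1, dg_op_left hx, sum_sub_distrib, h]; simp
  · by_cases h2 : a = y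
    · rw [h2, dg_op_right hy, sum_sub_distrib, h]; simp
    · exact dg_op_of_ne hx hy h1 h2 A

/-- key of the heat bath on the pair `u, v` -/
def kp (u v : V) (A : Gr V) : (V → V → Bool) × (V → ℤ) :=
  (fun a b => if a = u ∨ a = v ∨ b = u ∨ b = v then false else A.1 a b, dg A)

lemma kp_eq_iff : kp u v A = kp u v B ↔
    (∀ a b, a ≠ u → a ≠ v → b ≠ u → b ≠ v → A.1 a b = B.1 a b) ∧ dg A = dg B := by
  simp only [kp, Prod.mk.injEq, funext_iff]
  refine and_congr_left' (forall_congr' fun a => forall_congr' fun b => ?_)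
  split_ifs with h
  · tauto
  · push Not at h
    simp [h]

lemma kp_comm (u v : V) : kp u v = kp v u := by
  funext A
  simp only [kp, Prod.mk.injEq, and_true]
  funext a b
  congr 1
  exact propext (by tauto)

lemma col_eq (huv : u ≠ v) (h : kp u v A = kp u v B) (ha : a ≠ u) (ha' : a ≠ v) :
    bi (A.1 u a) + bi (A.1 v a) = bi (B.1 u a) + bi (B.1 v a) := by
  obtain ⟨h1, h2⟩ := kp_eq_iff.1 h
  have h3 : ∑ b, (bi (A.1 a b) - bi (B.1 a b)) = 0 := by
    rw [sum_sub_distrib, sub_eq_zero]; exact congrFun h2 a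
  rw [Fintype.sum_eq_add u v huv fun b hb => by rw [h1 a b ha ha' hb.1 hb.2, sub_self]] at h3
  rw [A.symm u, A.symm v, B.symm u, B.symm v]
  linarith

lemma bi_inj : ∀ {p q : Bool}, bi p = bi q → p = q := by decide

lemma edge_eq (huv : u ≠ v) (h : kp u v A = kp u v B) : A.1 u v = B.1 u v := by
  have h2 := (kp_eq_iff.1 h).2
  have h3 : ∑ b, (bi (A.1 u b) + bi (A.1 v b) - (bi (B.1 u b) + bi (B.1 v b))) = 0 := by
    rw [sum_sub_distrib, sum_add_distrib, sum_add_distrib, sub_eq_zero]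
    exact congrArg₂ (· + ·) (congrFun h2 u) (congrFun h2 v)
  rw [Fintype.sum_eq_add u v huv fun b hb => by rw [col_eq huv h hb.1 hb.2, sub_self]] at h3
  rw [A.symm v u, B.symm v u, A.irr, A.irr, B.irr, B.irr] at h3
  exact bi_inj (by linarith)

/-- the switch on rows `u, v` and columns `x, y` is active -/
def act (u v x y : V) (A : Gr V) : Prop :=
  A.1 u x = A.1 v y ∧ A.1 u y = A.1 v x ∧ A.1 u x ≠ A.1 u y

instance (u v x y : V) (A : Gr V) : Decidable (act u v x y A) := by unfold act; infer_instance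

omit [Fintype V] [DecidableEq V] in
lemma act_symm : act u v x y A ↔ act x y u v A := by
  unfold act
  rw [A.symm x u, A.symm y v, A.symm x v, A.symm y u]
  generalize A.1 u x = p; generalize A.1 u y = q; generalize A.1 v x = r; generalize A.1 v y = s
  revert p q r s; decide

omit [Fintype V] [DecidableEq V] in
lemma act_swap : act u v x y A ↔ act u v y x A := by
  unfold act
  generalize A.1 u x = p; generalize A.1 u y = q; generalize A.1 v x = r; generalize A.1 v y = s
  revert p q r s; decide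

/-- the switch -/
def sw (u v x y : V) (A : Gr V) : Gr V := if act u v x y A then op {u, v} x y A else A

/-- refined key -/
def kh (u v x y : V) (A : Gr V) : ((V → V → Bool) × (V → ℤ)) × Bool :=
  (kp u v A, decide (act u v x y A))

lemma kh_eq_iff : kh u v x y A = kh u v x y B ↔
    kp u v A = kp u v B ∧ (act u v x y A ↔ act u v x y B) := by
  simp [kh]

lemma op_u (hx : x ∉ ({u, v} : Finset V)) (hy : y ∉ ({u, v} : Finset V)) (A : Gr V) (b : V) :
    (op {u, v} x y A).1 u b = A.1 u (Equiv.swap x y b) := op_of_mem hx hy (by simp) A b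

lemma op_v (hx : x ∉ ({u, v} : Finset V)) (hy : y ∉ ({u, v} : Finset V)) (A : Gr V) (b : V) :
    (op {u, v} x y A).1 v b = A.1 v (Equiv.swap x y b) := op_of_mem hx hy (by simp) A b

lemma act_op (hc : c ∉ ({u, v} : Finset V)) (hc' : c' ∉ ({u, v} : Finset V)) (A : Gr V) (i j : V) :
    act u v i j (op {u, v} c c' A) ↔ act u v (Equiv.swap c c' i) (Equiv.swap c c' j) A := by
  simp only [act, op_u hc hc', op_v hc hc']

lemma act_sw (hx : x ∉ ({u, v} : Finset V)) (hy : y ∉ ({u, v} : Finset V)) (A : Gr V) :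
    act u v x y (sw u v x y A) ↔ act u v x y A := by
  unfold sw
  split_ifs with h
  · rw [act_op hx hy, Equiv.swap_apply_left, Equiv.swap_apply_right]
    exact act_swap
  · rfl

lemma sw_sw (hx : x ∉ ({u, v} : Finset V)) (hy : y ∉ ({u, v} : Finset V)) (A : Gr V) :
    sw u v x y (sw u v x y A) = A := by
  by_cases h : act u v x y A
  · rw [sw, if_pos ((act_sw hx hy A).2 h), sw, if_pos h, op_op hx hy]
  · rw [sw, if_neg (fun h' => h ((act_sw hx hy A).1 h')), sw, if_neg h]

lemma sw_swap (u v x y : V) (A : Gr V) : sw u v x y A = sw u v y x A := by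
  simp only [sw, act_swap (x := x), op_comm _ x]

lemma dg_sw (huv : u ≠ v) (hx : x ∉ ({u, v} : Finset V)) (hy : y ∉ ({u, v} : Finset V))
    (A : Gr V) : dg (sw u v x y A) = dg A := by
  unfold sw
  split_ifs with h
  · refine dg_op hx hy ?_
    obtain ⟨h1, h2, -⟩ := h
    rw [sum_pair huv, sum_pair huv, A.symm x u, A.symm x v, A.symm y u, A.symm y v, h1, h2,
      add_comm]
  · rfl

lemma kp_sw (huv : u ≠ v) (hx : x ∉ ({u, v} : Finset V)) (hy : y ∉ ({u, v} : Finset V))
    (A : Gr V) : kp u v (sw u v x y A) = kp u v A := by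
  refine kp_eq_iff.2 ⟨fun a b h1 h2 h3 h4 => ?_, dg_sw huv hx hy A⟩
  unfold sw
  split_ifs
  · exact op_of_not (by simp [h1, h2]) (by simp [h3, h4]) A
  · rfl

lemma kp_sw' (huv : u ≠ v) (hx : x ∉ ({u, v} : Finset V)) (hy : y ∉ ({u, v} : Finset V))
    (A : Gr V) : kp x y (sw u v x y A) = kp x y A := by
  refine kp_eq_iff.2 ⟨fun a b h1 h2 h3 h4 => ?_, dg_sw huv hx hy A⟩
  unfold sw
  split_ifs
  · exact op_of_ne h1 h2 h3 h4 A
  · rfl

lemma kh_sw (huv : u ≠ v) (hx : x ∉ ({u, v} : Finset V)) (hy : y ∉ ({u, v} : Finset V))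
    (A : Gr V) : kh u v x y (sw u v x y A) = kh u v x y A :=
  kh_eq_iff.2 ⟨kp_sw huv hx hy A, act_sw hx hy A⟩

lemma kh_sw' (huv : u ≠ v) (hx : x ∉ ({u, v} : Finset V)) (hy : y ∉ ({u, v} : Finset V))
    (A : Gr V) : kh x y u v (sw u v x y A) = kh x y u v A :=
  kh_eq_iff.2 ⟨kp_sw' huv hx hy A, by rw [act_symm, act_sw hx hy A, act_symm]⟩

/-- transport of keys along `op` when `u, v` are both inside or both outside `S` -/
lemma kp_op_of_eq (huv : u ≠ v) (hx : x ∉ S) (hy : y ∉ S) (hxu : x ∉ ({u, v} : Finset V))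
    (hyu : y ∉ ({u, v} : Finset V)) (hS : u ∈ S ↔ v ∈ S) (h : kp u v A = kp u v B) :
    kp u v (op S x y A) = kp u v (op S x y B) := by
  obtain ⟨h1, h2⟩ := kp_eq_iff.1 h
  simp only [mem_insert, mem_singleton, not_or] at hxu hyu
  have hsw : ∀ a, a ≠ u → a ≠ v → Equiv.swap x y a ≠ u ∧ Equiv.swap x y a ≠ v := by
    intro a h3 h4
    rw [Equiv.swap_apply_def]
    split_ifs
    exacts [hyu, hxu, ⟨h3, h4⟩]
  have hsum : ∀ a, a ≠ u → a ≠ v → ∑ b ∈ S, bi (A.1 a b) = ∑ b ∈ S, bi (B.1 a b) := by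
    intro a h3 h4
    by_cases hu : u ∈ S
    · rw [← sub_eq_zero, ← sum_sub_distrib,
        sum_eq_add_of_mem u v hu (hS.1 hu) huv fun b _ hb => by
          rw [h1 a b h3 h4 hb.1 hb.2, sub_self]]
      have := col_eq huv h h3 h4
      rw [A.symm a, A.symm a, B.symm a, B.symm a]
      linarith
    · refine sum_congr rfl fun b hb => ?_
      rw [h1 a b h3 h4 (fun h => hu (h ▸ hb)) (fun h => hu (hS.2 (h ▸ hb)))]
  refine kp_eq_iff.2 ⟨fun a b h3 h4 h5 h6 => ?_, ?_⟩
  · simp only [op]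
    split_ifs
    · exact h1 _ _ (hsw a h3 h4).1 (hsw a h3 h4).2 (hsw b h5 h6).1 (hsw b h5 h6).2
    · exact h1 _ _ (hsw a h3 h4).1 (hsw a h3 h4).2 h5 h6
    · exact h1 _ _ h3 h4 (hsw b h5 h6).1 (hsw b h5 h6).2
    · exact h1 _ _ h3 h4 h5 h6
  · funext a
    by_cases h3 : a = x
    · rw [h3, dg_op_left hx, dg_op_left hx, sum_sub_distrib, sum_sub_distrib, h2,
        hsum x hxu.1 hxu.2, hsum y hyu.1 hyu.2]
    · by_cases h4 : a = y
      · rw [h4, dg_op_right hy, dg_op_right hy, sum_sub_distrib, sum_sub_distrib, h2,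
          hsum x hxu.1 hxu.2, hsum y hyu.1 hyu.2]
      · rw [dg_op_of_ne hx hy h3 h4, dg_op_of_ne hx hy h3 h4, h2]

/-- connectivity of the fibres of `kp u v` under switches -/
lemma meas_kp (huv : u ≠ v) {g : Gr V → ℝ}
    (hg : ∀ i j, i ∉ ({u, v} : Finset V) → j ∉ ({u, v} : Finset V) → ∀ A,
      g (sw u v i j A) = g A) : Meas (kp u v) g := by
  intro A B hAB
  induction hm : (univ.filter fun c => A.1 u c ≠ B.1 u c).card using Nat.strong_induction_on
    generalizing A with
  | _ m ih =>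
  obtain ⟨h1, h2⟩ := kp_eq_iff.1 hAB
  have hv : ∀ c, A.1 u c = B.1 u c → A.1 v c = B.1 v c := by
    intro c hc
    by_cases hu : c = u
    · rw [hu, A.symm, B.symm, edge_eq huv hAB]
    · by_cases hv : c = v
      · simp [hv]
      · have := col_eq huv hAB hu hv
        rw [hc] at this
        exact bi_inj (by linarith)
  by_cases hall : ∀ c, A.1 u c = B.1 u c
  · congr 1
    refine Gr.ext fun a b => ?_
    by_cases h3 : a = u
    · rw [h3, hall]
    by_cases h4 : a = v
    · rw [h4, hv _ (hall _)]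
    by_cases h5 : b = u
    · rw [h5, A.symm, B.symm, hall]
    by_cases h6 : b = v
    · rw [h6, A.symm, B.symm, hv _ (hall _)]
    exact h1 a b h3 h4 h5 h6
  push Not at hall
  obtain ⟨c, hc⟩ := hall
  have hC : ∀ c, A.1 u c ≠ B.1 u c → c ∉ ({u, v} : Finset V) ∧ A.1 v c ≠ A.1 u c := by
    intro c hc
    have hu : c ≠ u := fun h => hc (by simp [h])
    have hv : c ≠ v := fun h => hc (h ▸ edge_eq huv hAB)
    refine ⟨by simp [hu, hv], ?_⟩
    have := col_eq huv hAB hu hv
    revert this hc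
    generalize A.1 u c = p; generalize A.1 v c = q; generalize B.1 u c = r; generalize B.1 v c = s
    revert p q r s; decide
  have hd : (∑ c, if A.1 u c = true then 1 else 0 : ℤ) = ∑ c, if B.1 u c = true then 1 else 0 :=
    congrFun h2 u
  have hex : ∃ c', A.1 u c' = B.1 u c ∧ A.1 u c' ≠ B.1 u c' := by
    cases hx : A.1 u c
    · obtain ⟨c', h3, h4⟩ := exists_opposite (c := c) hd.symm (by simp_all) (by simp [hx])
      exact ⟨c', by simp_all, by simp_all⟩
    · obtain ⟨c', h3, h4⟩ := exists_opposite (c := c) hd hx (by simp_all)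
      exact ⟨c', by simp_all, by simp_all⟩
  obtain ⟨c', h3, h4⟩ := hex
  obtain ⟨h5, h6⟩ := hC c hc
  obtain ⟨h7, h8⟩ := hC c' h4
  have hact : act u v c c' A := by
    unfold act
    revert h3 h4 h6 h8 hc
    generalize A.1 u c = p; generalize A.1 v c = q; generalize B.1 u c = r
    generalize A.1 u c' = p'; generalize A.1 v c' = q'; generalize B.1 u c' = r'
    revert p q r p' q' r'; decide
  rw [← hg c c' h5 h7 A]
  refine ih _ ?_ _ ((kp_sw huv h5 h7 A).trans hAB) rfl
  rw [← hm, sw, if_pos hact]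
  refine card_lt_card ⟨fun d hd => ?_, fun hsub => ?_⟩
  · simp only [mem_filter, mem_univ, true_and, op_u h5 h7, Equiv.swap_apply_def] at hd ⊢
    split_ifs at hd with h9 h10
    · rw [h9]; exact hc
    · rw [h10]; exact h4
    · exact hd
  · have := hsub (show c ∈ _ by simpa using hc)
    simp [op_u h5 h7, h3] at this

end Crest.Agent.R299
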