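import Mathlib
import Crest.Agent.R299.Gr

/-!
The Johnson-type inequality inside the fibres of one pair heat bath, by a maximum principle.
-/

set_option autoImplicit false
set_option linter.unusedSectionVars false

open Finset

namespace Crest.Agent.R299

variable {V : Type} [Fintype V] [DecidableEq V]
variable {S : Finset V} {u v x y a b c c' i j : V} {A B : Gr V}

lemma CE_ind {Ω K : Type} [Fintype Ω] {κ : Ω → K} {p : Ω → Prop} [DecidablePred p]
    (hp : ∀ x y, κ x = κ y → (p x ↔ p y)) (g : Ω → ℝ) :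
    CE κ (fun y => if p y then g y else 0) = fun x => if p x then CE κ g x else 0 := by
  funext x
  split_ifs with h
  · exact CE_congr fun y hy => if_pos ((hp y x hy).2 h)
  · rw [CE_congr (g := fun _ => 0) fun y hy => if_neg fun h' => h ((hp y x hy).1 h'), CE_const]

lemma ip_invol {Ω : Type} [Fintype Ω] (θ : Ω → Ω) (hθ : Function.Involutive θ) (f g : Ω → ℝ) :
    ip (fun x => f (θ x)) g = ip f (fun x => g (θ x)) := by
  unfold ip
  rw [← Equiv.sum_comp hθ.toPerm]
  simp [hθ _]

lemma Gr.ext_of (S : Finset V) (h1 : ∀ a ∈ S, ∀ b, A.1 a b = B.1 a b)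
    (h2 : ∀ a b, a ∉ S → b ∉ S → A.1 a b = B.1 a b) : A = B := by
  refine Gr.ext fun a b => ?_
  by_cases ha : a ∈ S
  · exact h1 a ha b
  · by_cases hb : b ∈ S
    · rw [A.symm, B.symm, h1 b hb a]
    · exact h2 a b ha hb

lemma op_eq_self (hx : x ∉ S) (hy : y ∉ S) (h : ∀ a ∈ S, A.1 a x = A.1 a y) : op S x y A = A := by
  refine Gr.ext_of S (fun a ha b => ?_) fun a b ha hb => op_of_not ha hb A
  rw [op_of_mem hx hy ha, Equiv.swap_apply_def]
  split_ifs with h1 h2
  · rw [h1, h a ha]
  · rw [h2, h a ha]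
  · rfl

lemma op_conj (hc : c ∉ S) (hc' : c' ∉ S) (hi : i ∉ S) (hj : j ∉ S) (A : Gr V) :
    op S (Equiv.swap c c' i) (Equiv.swap c c' j) (op S c c' A) = op S c c' (op S i j A) := by
  refine Gr.ext_of S (fun a ha b => ?_) fun a b ha hb => by simp only [op_of_not ha hb]
  rw [op_of_mem (by rwa [swap_mem_iff hc hc']) (by rwa [swap_mem_iff hc hc']) ha,
    op_of_mem hc hc' ha, op_of_mem hc hc' ha, op_of_mem hi hj ha,
    (Equiv.swap c c').injective.map_swap, Equiv.swap_apply_self, Equiv.swap_apply_self]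

/-- one term of the Johnson operator -/
noncomputable def jt (u v i j : V) (g : Gr V → ℝ) : Gr V → ℝ := fun A =>
  (g A - g (sw u v i j A)) / 2 - if act u v i j A then CE (kh u v i j) g A else 0

/-- the Johnson operator -/
noncomputable def jo (u v : V) (g : Gr V → ℝ) : Gr V → ℝ :=
  ∑ i ∈ ({u, v} : Finset V)ᶜ, ∑ j ∈ ({u, v} : Finset V)ᶜ, jt u v i j g

lemma jt_add (f g : Gr V → ℝ) : jt u v i j (f + g) = jt u v i j f + jt u v i j g := by
  funext A
  simp only [jt, CE_add, Pi.add_apply]
  split_ifs <;> ring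

lemma jt_sub (f g : Gr V → ℝ) : jt u v i j (f - g) = jt u v i j f - jt u v i j g := by
  funext A
  simp only [jt, CE_sub, Pi.sub_apply]
  split_ifs <;> ring

lemma jt_smul (r : ℝ) (f : Gr V → ℝ) : jt u v i j (r • f) = r • jt u v i j f := by
  funext A
  simp only [jt, CE_smul, Pi.smul_apply, smul_eq_mul]
  split_ifs <;> ring

lemma ip_ind_CE (f g : Gr V → ℝ) :
    ip (fun A => if act u v i j A then CE (kh u v i j) f A else 0) g =
      ip f (fun A => if act u v i j A then CE (kh u v i j) g A else 0) := by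
  rw [← CE_ind (fun x y h => (kh_eq_iff.1 h).2) g, ← ip_CE]
  unfold ip
  refine sum_congr rfl fun A _ => ?_
  dsimp only
  split_ifs <;> simp

lemma jt_eq (g : Gr V → ℝ) : jt u v i j g = (1 / 2 : ℝ) • (g - fun A => g (sw u v i j A)) -
    fun A => if act u v i j A then CE (kh u v i j) g A else 0 := by
  funext A
  simp only [jt, Pi.sub_apply, Pi.smul_apply, smul_eq_mul]
  ring

lemma jt_symm (hi : i ∉ ({u, v} : Finset V)) (hj : j ∉ ({u, v} : Finset V)) (f g : Gr V → ℝ) :
    ip (jt u v i j f) g = ip f (jt u v i j g) := by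
  rw [jt_eq, jt_eq, ip_sub_left, ip_sub_right, ip_ind_CE, ip_smul_left, ip_smul_right,
    ip_sub_left, ip_sub_right, ip_invol _ (sw_sw hi hj)]

lemma jt_op (huv : u ≠ v) (hc : c ∉ ({u, v} : Finset V)) (hc' : c' ∉ ({u, v} : Finset V))
    (hi : i ∉ ({u, v} : Finset V)) (hj : j ∉ ({u, v} : Finset V)) (g : Gr V → ℝ) (A : Gr V) :
    jt u v i j (fun B => g (op {u, v} c c' B)) A =
      jt u v (Equiv.swap c c' i) (Equiv.swap c c' j) g (op {u, v} c c' A) := by
  have hact : ∀ B, act u v (Equiv.swap c c' i) (Equiv.swap c c' j) (op {u, v} c c' B) ↔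
      act u v i j B := fun B => by
    rw [act_op hc hc', Equiv.swap_apply_self, Equiv.swap_apply_self]
  have hkp : ∀ {A B : Gr V}, kp u v A = kp u v B →
      kp u v (op {u, v} c c' A) = kp u v (op {u, v} c c' B) :=
    kp_op_of_eq huv hc hc' hc hc' (by simp)
  have h1 := CE_equiv (κ := kh u v i j) (κ' := kh u v (Equiv.swap c c' i) (Equiv.swap c c' j))
    (Function.Involutive.toPerm (op {u, v} c c') (op_op hc hc')) A (fun B => by
      simp only [Function.Involutive.coe_toPerm, kh_eq_iff, hact]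
      refine and_congr_left' ⟨hkp, fun h => ?_⟩
      have := hkp h
      rwa [op_op hc hc', op_op hc hc'] at this) g
  simp only [Function.Involutive.coe_toPerm] at h1
  simp only [jt, sw, hact, h1]
  split_ifs
  · rw [op_conj hc hc' hi hj]
  · rfl

lemma jo_op (huv : u ≠ v) (hc : c ∉ ({u, v} : Finset V)) (hc' : c' ∉ ({u, v} : Finset V))
    (g : Gr V → ℝ) (A : Gr V) :
    jo u v (fun B => g (op {u, v} c c' B)) A = jo u v g (op {u, v} c c' A) := by
  simp only [jo, Finset.sum_apply]
  refine sum_equiv (Equiv.swap c c') (fun i => by simp only [mem_compl, swap_mem_iff hc hc'])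
    fun i hi => ?_
  refine sum_equiv (Equiv.swap c c') (fun i => by simp only [mem_compl, swap_mem_iff hc hc'])
    fun j hj => ?_
  exact jt_op huv hc hc' (mem_compl.1 hi) (mem_compl.1 hj) g A

lemma not_act_three (hi : i ∉ ({u, v} : Finset V)) (hj : j ∉ ({u, v} : Finset V))
    (h1 : ¬ (i = c ∧ j = c' ∨ i = c' ∧ j = c)) (h2 : i = c ∨ i = c' ∨ j = c ∨ j = c')
    (h3 : act u v i j B) (h4 : act u v c c' B) : ¬ act u v c c' (sw u v i j B) := by
  rw [sw, if_pos h3, act_op hi hj]
  intro h5
  have h6 := h3.2.2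
  have h7 := h4.2.2
  have h8 := h5.2.2
  have hij : i ≠ j := fun h => h6 (by rw [h])
  have hcc : c ≠ c' := fun h => h7 (by rw [h])
  have key : ∀ p q r : Bool, p ≠ q → p ≠ r → q = r := by decide
  push Not at h1
  rcases h2 with rfl | rfl | rfl | rfl
  · rw [Equiv.swap_apply_left, Equiv.swap_apply_of_ne_of_ne hcc.symm (h1.1 rfl).symm] at h8
    exact h8 (key _ _ _ h6 h7)
  · rw [Equiv.swap_apply_left, Equiv.swap_apply_of_ne_of_ne hcc (h1.2 rfl).symm] at h8
    exact h8 (key _ _ _ h7.symm h6)
  · rw [Equiv.swap_apply_right,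
      Equiv.swap_apply_of_ne_of_ne (fun h => h1.2 h.symm rfl) hcc.symm] at h8
    exact h8 (key _ _ _ h6.symm h7)
  · rw [Equiv.swap_apply_right,
      Equiv.swap_apply_of_ne_of_ne (fun h => h1.1 h.symm rfl) hcc] at h8
    exact h8 (key _ _ _ h7.symm h6.symm)

theorem johnson (huv : u ≠ v) (g : Gr V → ℝ) (hg : CE (kp u v) g = 0) :
    2 * ip g g ≤ ip g (jo u v g) := by
  classical
  refine eigen_lemma (kp u v) (jo u v) (fun f g => by simp only [jo, jt_add, sum_add_distrib])
    (fun r f => by simp only [jo, jt_smul, smul_sum]) (fun f g => ?_) 2 ?_ g hg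
  · simp only [jo, ip_sum_left, ip_sum_right]
    exact sum_congr rfl fun i hi => sum_congr rfl fun j hj =>
      jt_symm (mem_compl.1 hi) (mem_compl.1 hj) f g
  intro g μ hg0 hg hm
  have hex : ∃ A c c', c ∉ ({u, v} : Finset V) ∧ c' ∉ ({u, v} : Finset V) ∧
      0 < g A - g (sw u v c c' A) := by
    by_contra hcon
    push Not at hcon
    refine hg0 ?_
    rw [← hg, (meas_kp huv fun i j hi hj A => ?_).CE_eq]
    have h1 := hcon A i j hi hj
    have h2 := hcon (sw u v i j A) i j hi hj
    rw [sw_sw hi hj] at h2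
    linarith
  obtain ⟨A₀, c₀, c₀', h₀, h₀', hpos⟩ := hex
  obtain ⟨⟨A, c, c'⟩, hmem, hmax⟩ := exists_max_image
    (univ.filter fun t : Gr V × V × V =>
      t.2.1 ∉ ({u, v} : Finset V) ∧ t.2.2 ∉ ({u, v} : Finset V))
    (fun t => g t.1 - g (sw u v t.2.1 t.2.2 t.1)) ⟨(A₀, c₀, c₀'), by
      simp only [mem_filter, mem_univ, true_and]; exact ⟨h₀, h₀'⟩⟩
  simp only [mem_filter, mem_univ, true_and] at hmem hmax
  obtain ⟨hc, hc'⟩ := hmem
  set G := g A - g (sw u v c c' A) with hG
  have hG0 : 0 < G := lt_of_lt_of_le hpos (hmax (A₀, c₀, c₀') ⟨h₀, h₀'⟩)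
  have hact : act u v c c' A := by
    by_contra h
    rw [sw, if_neg h, sub_self] at hG
    linarith
  have hcc : c ≠ c' := fun h => hact.2.2 (by rw [h])
  have hπ : ∀ B, kp u v B = kp u v A → op {u, v} c c' B = sw u v c c' B := by
    intro B hB
    unfold sw
    split_ifs with h
    · rfl
    · have hc2 := hc
      have hc2' := hc'
      simp only [mem_insert, mem_singleton, not_or] at hc2 hc2'
      have h1 := col_eq huv hB hc2.1 hc2.2
      have h2 := col_eq huv hB hc2'.1 hc2'.2
      have h3 : B.1 u c = B.1 u c' ∧ B.1 v c = B.1 v c' := by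
        unfold act at h hact
        revert h1 h2 h hact
        generalize A.1 u c = p; generalize A.1 v c = q; generalize B.1 u c = r
        generalize B.1 v c = s; generalize A.1 u c' = p'; generalize A.1 v c' = q'
        generalize B.1 u c' = r'; generalize B.1 v c' = s'
        revert p q r s p' q' r' s'; decide
      refine op_eq_self hc hc' fun a ha => ?_
      simp only [mem_insert, mem_singleton] at ha
      rcases ha with rfl | rfl
      exacts [h3.1, h3.2]
  set h : Gr V → ℝ := g - fun B => g (op {u, v} c c' B) with hh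
  have hh1 : ∀ B, kp u v B = kp u v A → h B = g B - g (sw u v c c' B) := fun B hB => by
    rw [hh, Pi.sub_apply, hπ B hB]
  have hh2 : ∀ B, kp u v B = kp u v A → h B ≤ G := fun B hB => by
    rw [hh1 B hB]; exact hmax (B, c, c') ⟨hc, hc'⟩
  have hh3 : ∀ B, kp u v B = kp u v A → h B + h (sw u v c c' B) = 0 := fun B hB => by
    rw [hh1 B hB, hh1 _ ((kp_sw huv hc hc' B).trans hB), sw_sw hc hc']; ring
  have hh4 : ∀ B, kp u v B = kp u v A → ¬ act u v c c' B → h B = 0 := fun B hB hB' => by
    rw [hh1 B hB, sw, if_neg hB', sub_self]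
  have hh5 : h A = G := hh1 A rfl
  have h1 : jo u v h A = μ * G := by
    have h2 : jo u v h A = jo u v g A - jo u v g (sw u v c c' A) := by
      rw [← hπ A rfl, ← jo_op huv hc hc', hh]
      simp only [jo, jt_sub, sum_sub_distrib, Pi.sub_apply]
    have h3 := hm A _ (kp_sw huv hc hc' A).symm
    simp only [Pi.sub_apply, Pi.smul_apply, smul_eq_mul] at h3
    rw [h2, hG]
    linarith
  have h2 : ∀ i j, i ∉ ({u, v} : Finset V) → j ∉ ({u, v} : Finset V) →
      (if i = c ∧ j = c' ∨ i = c' ∧ j = c then G else 0) ≤ jt u v i j h A := by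
    intro i j hi hj
    unfold jt
    by_cases hij : act u v i j A
    · rw [if_pos hij]
      split_ifs with h3
      · have h4 : sw u v i j = sw u v c c' ∧ ∀ B, kh u v i j (sw u v c c' B) = kh u v i j B := by
          rcases h3 with ⟨rfl, rfl⟩ | ⟨rfl, rfl⟩
          · exact ⟨rfl, kh_sw huv hi hj⟩
          · exact ⟨funext fun B => sw_swap _ _ _ _ _, fun B => by
              rw [sw_swap]; exact kh_sw huv hi hj B⟩
        have h5 : CE (kh u v i j) h A ≤ 0 := CE_le_of_invol _ (sw_sw hc hc') h4.2
          fun B hB => by rw [hh3 B (kh_eq_iff.1 hB).1]; simp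
        have h6 := hh3 A rfl
        rw [h4.1]
        linarith
      · by_cases h4 : i = c ∨ i = c' ∨ j = c ∨ j = c'
        · have h5 : ∀ B, kp u v B = kp u v A → act u v i j B → h B + h (sw u v i j B) ≤ G := by
            intro B hB hB'
            have hB2 := (kp_sw huv hi hj B).trans hB
            by_cases h6 : act u v c c' B
            · rw [hh4 _ hB2 (not_act_three hi hj h3 h4 hB' h6), add_zero]; exact hh2 B hB
            · rw [hh4 _ hB h6, zero_add]; exact hh2 _ hB2
          have h6 : CE (kh u v i j) h A ≤ G / 2 := CE_le_of_invol _ (sw_sw hi hj)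
            (kh_sw huv hi hj) fun B hB => by
              have := h5 B (kh_eq_iff.1 hB).1 ((kh_eq_iff.1 hB).2.2 hij)
              linarith
          have h7 := h5 A rfl hij
          linarith
        · push Not at h4
          have h5 : CE (kh u v i j) h A ≤ 0 := CE_le_of_invol _ (sw_sw hc hc')
            (fun B => kh_eq_iff.2 ⟨kp_sw huv hc hc' B, by
              unfold sw
              split_ifs
              · rw [act_op hc hc', Equiv.swap_apply_of_ne_of_ne h4.1 h4.2.1,
                  Equiv.swap_apply_of_ne_of_ne h4.2.2.1 h4.2.2.2]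
              · rfl⟩)
            fun B hB => by rw [hh3 B (kh_eq_iff.1 hB).1]; simp
          have h6 := hh2 _ (kp_sw huv hi hj A)
          linarith
    · rw [if_neg hij, sw, if_neg hij, if_neg]
      · simp
      · rintro (⟨rfl, rfl⟩ | ⟨rfl, rfl⟩)
        exacts [hij hact, hij (act_swap.1 hact)]
  have h3 : 2 * G ≤ jo u v h A := by
    simp only [jo, Finset.sum_apply]
    refine le_trans (le_of_eq ?_) (sum_le_sum fun i hi => sum_le_sum fun j hj =>
      h2 i j (mem_compl.1 hi) (mem_compl.1 hj))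
    have h4 : ∀ i j, (if i = c ∧ j = c' ∨ i = c' ∧ j = c then G else 0) =
        (if i = c then if j = c' then G else 0 else 0) +
          if i = c' then if j = c then G else 0 else 0 := by
      intro i j
      by_cases h5 : i = c
      · subst h5; simp [hcc]
      · by_cases h6 : i = c' <;> simp [h5, h6, hcc.symm]
    simp only [h4, sum_add_distrib, sum_ite_irrel, sum_const_zero, sum_ite_eq', mem_compl, hc, hc',
      not_false_eq_true, if_true]
    ring
  rw [h1] at h3
  exact le_of_mul_le_mul_right h3 hG0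

end Crest.Agent.R299
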