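import Mathlib
import Crest.Agent.R299.Johnson

/-!
The cross term of two heat baths on disjoint pairs.
-/

set_option autoImplicit false
set_option linter.unusedSectionVars false

open Finset

namespace Crest.Agent.R299

section abstract

variable {Ω K K' : Type} [Fintype Ω]

lemma ip_proj_comm (R R' : (Ω → ℝ) → (Ω → ℝ)) (hs : ∀ f g, ip (R f) g = ip f (R g))
    (hs' : ∀ f g, ip (R' f) g = ip f (R' g)) (hi : ∀ f, R (R f) = R f)
    (hi' : ∀ f, R' (R' f) = R' f) (hc : ∀ f, R (R' f) = R' (R f)) (f : Ω → ℝ) :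
    ip (R f) (R' f) = ip (R (R' f)) (R (R' f)) := by
  rw [hs (R' f), hi, hc, ← hs' (R' f), hi', ip_comm]

lemma CE_eq_of_fib {κ : Ω → K} {κ' : Ω → K'} {x : Ω} (h : ∀ y, κ y = κ x ↔ κ' y = κ' x)
    (f : Ω → ℝ) : CE κ f x = CE κ' f x :=
  CE_equiv (Equiv.refl Ω) x h f

lemma ip_half_sub (θ : Ω → Ω) (hθ : Function.Involutive θ) (g : Ω → ℝ) :
    ip g (fun x => (g x - g (θ x)) / 2) =
      ip (fun x => (g x - g (θ x)) / 2) (fun x => (g x - g (θ x)) / 2) := by
  have h1 := ip_invol θ hθ g (fun x => (g x - g (θ x)) / 2)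
  simp only [hθ _] at h1
  have h2 : ∑ x, (g x - g (θ x)) / 2 * ((g x - g (θ x)) / 2) =
      (∑ x, g x * ((g x - g (θ x)) / 2)) / 2 - (∑ x, g (θ x) * ((g x - g (θ x)) / 2)) / 2 := by
    rw [sum_div, sum_div, ← sum_sub_distrib]
    exact sum_congr rfl fun x _ => by ring
  have h3 : ∑ x, g x * ((g (θ x) - g x) / 2) = -∑ x, g x * ((g x - g (θ x)) / 2) := by
    rw [← sum_neg_distrib]
    exact sum_congr rfl fun x _ => by ring
  unfold ip at h1 ⊢
  rw [h2, h1, h3]
  ring

lemma ip_half_sub_le (θ : Ω → Ω) (hθ : Function.Involutive θ) (g : Ω → ℝ) :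
    ip (fun x => (g x - g (θ x)) / 2) (fun x => (g x - g (θ x)) / 2) ≤ ip g g := by
  have h1 := ip_invol θ hθ g (fun x => g (θ x))
  simp only [hθ _] at h1
  have h2 : ip (fun x => (g x - g (θ x)) / 2) (fun x => (g x - g (θ x)) / 2) ≤
      (ip g g + ip (fun x => g (θ x)) (fun x => g (θ x))) / 2 := by
    unfold ip
    rw [← sum_add_distrib, sum_div]
    exact sum_le_sum fun x _ => by nlinarith [sq_nonneg (g x + g (θ x))]
  rw [h1] at h2
  have h3 : (fun x => g x) = g := rfl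
  rw [h3] at h2
  linarith

end abstract

variable {V : Type} [Fintype V] [DecidableEq V]
variable {S : Finset V} {u v x y a b c c' i j : V} {A B : Gr V}

lemma op_eq_of (hx : x ∉ S) (hy : y ∉ S) (hxy : x ≠ y) (h : kp x y A = kp x y B)
    (h1 : ∀ w ∈ S, B.1 x w = A.1 y w ∧ B.1 y w = A.1 x w)
    (h2 : ∀ w, w ∉ S → w ≠ x → w ≠ y → B.1 x w = A.1 x w ∧ B.1 y w = A.1 y w) :
    op S x y A = B := by
  refine Gr.ext_of {x, y} (fun a ha b => ?_) fun a b ha hb => ?_
  · simp only [mem_insert, mem_singleton] at ha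
    have he := edge_eq hxy h
    rcases ha with rfl | rfl
    · rw [op_of_notMem hx]
      split_ifs with hb
      · rw [Equiv.swap_apply_left, (h1 b hb).1]
      · by_cases h3 : b = a
        · simp [h3]
        · by_cases h4 : b = y
          · rw [h4, he]
          · rw [(h2 b hb h3 h4).1]
    · rw [op_of_notMem hy]
      split_ifs with hb
      · rw [Equiv.swap_apply_right, (h1 b hb).2]
      · by_cases h3 : b = a
        · simp [h3]
        · by_cases h4 : b = x
          · rw [h4, A.symm, B.symm, he]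
          · rw [(h2 b hb h4 h3).2]
  · simp only [mem_insert, mem_singleton, not_or] at ha hb
    rw [op_of_ne ha.1 ha.2 hb.1 hb.2, (kp_eq_iff.1 h).1 a b ha.1 ha.2 hb.1 hb.2]

lemma exists_op (hxy : x ≠ y) (hx : x ∉ ({u, v} : Finset V)) (hy : y ∉ ({u, v} : Finset V))
    (h : kh x y u v A = kh x y u v B) :
    ∃ S : Finset V, x ∉ S ∧ y ∉ S ∧ (u ∈ S ↔ v ∈ S) ∧ op S x y A = B := by
  obtain ⟨h1, h2⟩ := kh_eq_iff.1 h
  simp only [mem_insert, mem_singleton, not_or] at hx hy
  have hu := col_eq hxy h1 (Ne.symm hx.1) (Ne.symm hy.1)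
  have hv := col_eq hxy h1 (Ne.symm hx.2) (Ne.symm hy.2)
  have hkey : (A.1 x u ≠ B.1 x u ∨ A.1 x v ≠ B.1 x v) →
      (B.1 x u = A.1 y u ∧ B.1 y u = A.1 x u) ∧ (B.1 x v = A.1 y v ∧ B.1 y v = A.1 x v) := by
    unfold act at h2
    revert hu hv h2
    generalize A.1 x u = p; generalize A.1 y u = q; generalize B.1 x u = r
    generalize B.1 y u = s; generalize A.1 x v = p'; generalize A.1 y v = q'
    generalize B.1 x v = r'; generalize B.1 y v = s'
    revert p q r s p' q' r' s'; decide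
  have hk1 : ∀ p q r s : Bool, bi p + bi q = bi r + bi s → p ≠ r → r = q ∧ s = p := by decide
  have hk2 : ∀ p q r s : Bool, bi p + bi q = bi r + bi s → p = r → r = p ∧ s = q := by decide
  refine ⟨univ.filter fun w => w ≠ x ∧ w ≠ y ∧
    if w = u ∨ w = v then (A.1 x u ≠ B.1 x u ∨ A.1 x v ≠ B.1 x v) else A.1 x w ≠ B.1 x w,
    by simp, by simp, by simp [Ne.symm hx.1, Ne.symm hx.2, Ne.symm hy.1, Ne.symm hy.2], ?_⟩
  refine op_eq_of (by simp) (by simp) hxy h1 (fun w hw => ?_) fun w hw h3 h4 => ?_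
  · simp only [mem_filter, mem_univ, true_and] at hw
    obtain ⟨h3, h4, h5⟩ := hw
    split_ifs at h5 with h6
    · rcases h6 with rfl | rfl
      exacts [(hkey h5).1, (hkey h5).2]
    · exact hk1 _ _ _ _ (col_eq hxy h1 h3 h4) h5
  · simp only [mem_filter, mem_univ, true_and, not_and] at hw
    have h5 := hw h3 h4
    refine hk2 _ _ _ _ (col_eq hxy h1 h3 h4) ?_
    split_ifs at h5 with h6
    · push Not at h5
      rcases h6 with rfl | rfl
      exacts [h5.1, h5.2]
    · exact not_not.1 h5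

lemma act_op' (hx : x ∉ S) (hy : y ∉ S) (hS : u ∈ S ↔ v ∈ S) (B : Gr V) :
    act u v x y (op S x y B) ↔ act u v x y B := by
  by_cases hu : u ∈ S
  · have hv := hS.1 hu
    rw [act_swap (A := B)]
    simp only [act, op_of_mem hx hy hu, op_of_mem hx hy hv, Equiv.swap_apply_left,
      Equiv.swap_apply_right]
  · have hv : v ∉ S := fun h => hu (hS.2 h)
    simp only [act, op_of_not hu hx, op_of_not hu hy, op_of_not hv hx, op_of_not hv hy]

lemma comm_aux {K : Type} (κ : Gr V → K) (huv : u ≠ v) (hxy : x ≠ y)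
    (hx : x ∉ ({u, v} : Finset V)) (hy : y ∉ ({u, v} : Finset V))
    (hκ : ∀ S : Finset V, x ∉ S → y ∉ S → (u ∈ S ↔ v ∈ S) → ∀ A B, κ A = κ B →
      κ (op S x y A) = κ (op S x y B))
    (hκ' : ∀ A B, κ A = κ B → kp u v A = kp u v B) (f : Gr V → ℝ) :
    CE κ (CE (kh x y u v) f) = CE (kh x y u v) (CE κ f) := by
  refine CE_comm (fun f hf A A' hA => ?_) f
  obtain ⟨S, h1, h2, h3, rfl⟩ := exists_op hxy hx hy hA
  have h4 := CE_equiv (κ := κ) (κ' := κ) (Function.Involutive.toPerm (op S x y) (op_op h1 h2)) A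
    (fun B => ⟨hκ S h1 h2 h3 _ _, fun h => by
      have := hκ S h1 h2 h3 _ _ h
      simpa only [Function.Involutive.coe_toPerm, op_op h1 h2] using this⟩) f
  simp only [Function.Involutive.coe_toPerm] at h4
  rw [← h4]
  refine CE_congr fun B hB => hf _ _ (kh_eq_iff.2 ⟨kp_eq_iff.2 ⟨fun a b h5 h6 h7 h8 => ?_, ?_⟩, ?_⟩)
  · rw [op_of_ne h5 h6 h7 h8]
  · have h5 := hκ' _ _ hB
    rw [(kp_eq_iff.1 (kp_op_of_eq huv h1 h2 hx hy h3 h5)).2, (kp_eq_iff.1 h5).2,
      (kp_eq_iff.1 (kh_eq_iff.1 hA).1).2]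
  · rw [act_symm, act_symm (A := op S x y B), act_op' h1 h2 h3]

lemma comm_kp (huv : u ≠ v) (hxy : x ≠ y) (hx : x ∉ ({u, v} : Finset V))
    (hy : y ∉ ({u, v} : Finset V)) (f : Gr V → ℝ) :
    CE (kp u v) (CE (kh x y u v) f) = CE (kh x y u v) (CE (kp u v) f) :=
  comm_aux _ huv hxy hx hy (fun _ h1 h2 h3 _ _ h => kp_op_of_eq huv h1 h2 hx hy h3 h)
    (fun _ _ h => h) f

lemma comm_kh (huv : u ≠ v) (hxy : x ≠ y) (hx : x ∉ ({u, v} : Finset V))
    (hy : y ∉ ({u, v} : Finset V)) (f : Gr V → ℝ) :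
    CE (kh u v x y) (CE (kh x y u v) f) = CE (kh x y u v) (CE (kh u v x y) f) :=
  comm_aux _ huv hxy hx hy (fun _ h1 h2 h3 _ _ h => kh_eq_iff.2
    ⟨kp_op_of_eq huv h1 h2 hx hy h3 (kh_eq_iff.1 h).1, by
      rw [act_op' h1 h2 h3, act_op' h1 h2 h3, (kh_eq_iff.1 h).2]⟩)
    (fun _ _ h => (kh_eq_iff.1 h).1) f

/-- the defect term -/
noncomputable def nn (u v x y : V) (f : Gr V → ℝ) : ℝ :=
  ∑ A, if act u v x y A then (CE (kh u v x y) f A - CE (kp u v) f A) ^ 2 else 0

/-- the Dirichlet form of one switch -/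
noncomputable def dd (u v x y : V) (f : Gr V → ℝ) : ℝ :=
  ip (fun A => (f A - f (sw u v x y A)) / 2) (fun A => (f A - f (sw u v x y A)) / 2)

lemma nn_nonneg (u v x y : V) (f : Gr V → ℝ) : 0 ≤ nn u v x y f :=
  sum_nonneg fun _ _ => by split_ifs <;> positivity

lemma notMem_symm (hx : x ∉ ({u, v} : Finset V)) (hy : y ∉ ({u, v} : Finset V)) :
    u ∉ ({x, y} : Finset V) ∧ v ∉ ({x, y} : Finset V) := by
  simp only [mem_insert, mem_singleton, not_or] at hx hy ⊢
  exact ⟨⟨Ne.symm hx.1, Ne.symm hy.1⟩, ⟨Ne.symm hx.2, Ne.symm hy.2⟩⟩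

lemma cross_nonneg (huv : u ≠ v) (hxy : x ≠ y) (hx : x ∉ ({u, v} : Finset V))
    (hy : y ∉ ({u, v} : Finset V)) (f : Gr V → ℝ) :
    0 ≤ ip (CE (kh u v x y) f - CE (kp u v) f) (f - CE (kh x y u v) f) := by
  have hle : ∀ A B, kh u v x y A = kh u v x y B → kp u v A = kp u v B :=
    fun _ _ h => (kh_eq_iff.1 h).1
  rw [ip_proj_comm (fun f => CE (kh u v x y) f - CE (kp u v) f) (fun f => f - CE (kh x y u v) f)
    (fun f g => by simp only [ip_sub_left, ip_sub_right, ip_CE])
    (fun f g => by simp only [ip_sub_left, ip_sub_right, ip_CE])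
    (fun f => by simp only [CE_sub, CE_CE, CE_CE_of_le hle, CE_CE_of_le' hle]; abel)
    (fun f => by simp only [CE_sub, CE_CE]; abel)
    (fun f => by simp only [CE_sub, comm_kp huv hxy hx hy, comm_kh huv hxy hx hy]; abel)]
  exact ip_self_nonneg _

lemma hat_ge (huv : u ≠ v) (hxy : x ≠ y) (hx : x ∉ ({u, v} : Finset V))
    (hy : y ∉ ({u, v} : Finset V)) (f : Gr V → ℝ) :
    dd u v x y f ≤ ip (f - CE (kh u v x y) f) (f - CE (kh x y u v) f) := by
  rw [ip_proj_comm (fun f => f - CE (kh u v x y) f) (fun f => f - CE (kh x y u v) f)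
    (fun f g => by simp only [ip_sub_left, ip_sub_right, ip_CE])
    (fun f g => by simp only [ip_sub_left, ip_sub_right, ip_CE])
    (fun f => by simp only [CE_sub, CE_CE]; abel)
    (fun f => by simp only [CE_sub, CE_CE]; abel)
    (fun f => by simp only [CE_sub, comm_kh huv hxy hx hy]; abel)]
  refine le_trans (le_of_eq ?_) (ip_half_sub_le (sw u v x y) (sw_sw hx hy) _)
  have : ∀ A, (f - CE (kh x y u v) f - CE (kh u v x y) (f - CE (kh x y u v) f)) A -
      (f - CE (kh x y u v) f - CE (kh u v x y) (f - CE (kh x y u v) f)) (sw u v x y A) =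
      f A - f (sw u v x y A) := by
    intro A
    simp only [Pi.sub_apply]
    rw [meas_CE _ _ _ _ (kh_sw huv hx hy A), meas_CE _ _ _ _ (kh_sw' huv hx hy A)]
    ring
  simp only [this, dd]

lemma pi_ge (huv : u ≠ v) (hxy : x ≠ y) (hx : x ∉ ({u, v} : Finset V))
    (hy : y ∉ ({u, v} : Finset V)) (f : Gr V → ℝ) :
    -((nn u v x y f + nn x y u v f) / 2) ≤
      ip (CE (kh u v x y) f - CE (kp u v) f) (CE (kh x y u v) f - CE (kp x y) f) := by
  rw [nn, nn, ← sum_add_distrib, sum_div, ← sum_neg_distrib]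
  refine sum_le_sum fun A _ => ?_
  simp only [Pi.sub_apply]
  by_cases h : act u v x y A
  · rw [if_pos h, if_pos (act_symm.1 h)]
    nlinarith [sq_nonneg (CE (kh u v x y) f A - CE (kp u v) f A +
      (CE (kh x y u v) f A - CE (kp x y) f A))]
  · have h' : ¬ act x y u v A := fun h' => h (act_symm.1 h')
    rw [if_neg h, if_neg h']
    by_cases h1 : ∃ B, kp u v B = kp u v A ∧ act u v x y B
    · obtain ⟨B, h2, h3⟩ := h1
      rw [CE_eq_of_fib (κ := kh x y u v) (κ' := kp x y) (x := A), sub_self]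
      · simp
      intro B'
      rw [kh_eq_iff]
      refine and_iff_left_of_imp fun h4 => iff_of_false (fun h5 => ?_) h'
      simp only [mem_insert, mem_singleton, not_or] at hx hy
      have h6 := col_eq huv h2 hx.1 hx.2
      have h7 := col_eq huv h2 hy.1 hy.2
      have h8 := col_eq hxy h4 (Ne.symm hx.1) (Ne.symm hy.1)
      have h9 := col_eq hxy h4 (Ne.symm hx.2) (Ne.symm hy.2)
      rw [A.symm x, A.symm y] at h8 h9
      have h10 : bi (B'.1 x u) + bi (B'.1 y u) = 1 := by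
        have := h5.2.2
        rw [← h5.2.1]
        revert this
        generalize B'.1 x u = p; generalize B'.1 x v = q; revert p q; decide
      have h11 : bi (B.1 u x) + bi (B.1 v x) = 1 ∧ bi (B.1 u y) + bi (B.1 v y) = 1 := by
        have := h3.2.2
        rw [← h3.2.1, ← h3.1]
        revert this
        generalize B.1 u x = p; generalize B.1 u y = q; revert p q; decide
      rw [h10] at h8
      rw [h11.1] at h6
      rw [h11.2] at h7
      unfold act at h
      revert h h6 h7 h8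
      generalize A.1 u x = p; generalize A.1 u y = q; generalize A.1 v x = r
      generalize A.1 v y = s; revert p q r s; decide
    · rw [CE_eq_of_fib (κ := kh u v x y) (κ' := kp u v) (x := A), sub_self]
      · simp
      intro B
      rw [kh_eq_iff]
      exact and_iff_left_of_imp fun h4 => iff_of_false (fun h5 => h1 ⟨B, h4, h5⟩) h

lemma dlemma (huv : u ≠ v) (hxy : x ≠ y) (hx : x ∉ ({u, v} : Finset V))
    (hy : y ∉ ({u, v} : Finset V)) (f : Gr V → ℝ) :
    dd u v x y f - (nn u v x y f + nn x y u v f) / 2 ≤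
      ip (f - CE (kp u v) f) (f - CE (kp x y) f) := by
  obtain ⟨hu, hv⟩ := notMem_symm hx hy
  have h1 := hat_ge huv hxy hx hy f
  have h2 := pi_ge huv hxy hx hy f
  have h3 := cross_nonneg huv hxy hx hy f
  have h4 := cross_nonneg hxy huv hu hv f
  rw [ip_comm] at h4
  simp only [ip_sub_left, ip_sub_right] at h1 h2 h3 h4 ⊢
  linarith

lemma ip_jt (huv : u ≠ v) (hx : x ∉ ({u, v} : Finset V)) (hy : y ∉ ({u, v} : Finset V))
    (f : Gr V → ℝ) : ip (f - CE (kp u v) f) (jt u v x y (f - CE (kp u v) f)) =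
      dd u v x y f - nn u v x y f := by
  have hle : ∀ A B, kh u v x y A = kh u v x y B → kp u v A = kp u v B :=
    fun _ _ h => (kh_eq_iff.1 h).1
  set g := f - CE (kp u v) f with hg
  have h1 : jt u v x y g = (fun A => (g A - g (sw u v x y A)) / 2) -
      fun A => if act u v x y A then CE (kh u v x y) g A else 0 := rfl
  have h2 : ∀ A, g A - g (sw u v x y A) = f A - f (sw u v x y A) := by
    intro A
    simp only [hg, Pi.sub_apply]
    rw [meas_CE _ _ _ _ (kp_sw huv hx hy A)]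
    ring
  have h3 : CE (kh u v x y) g = CE (kh u v x y) f - CE (kp u v) f := by
    rw [hg, CE_sub, CE_CE_of_le hle]
  rw [h1, ip_sub_right, ip_half_sub _ (sw_sw hx hy), ← CE_CE (kh u v x y) g, ← ip_ind_CE, h3]
  simp only [h2, dd, nn]
  congr 1
  refine sum_congr rfl fun A _ => ?_
  dsimp only
  split_ifs
  · simp [sq]
  · simp

/-- symmetric form of the cross term bound -/
lemma dlemma' (huv : u ≠ v) (hxy : x ≠ y) (hx : x ∉ ({u, v} : Finset V))
    (hy : y ∉ ({u, v} : Finset V)) (f : Gr V → ℝ) :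
    (ip (f - CE (kp u v) f) (jt u v x y (f - CE (kp u v) f)) +
      ip (f - CE (kp x y) f) (jt x y u v (f - CE (kp x y) f))) / 2 ≤
      ip (f - CE (kp u v) f) (f - CE (kp x y) f) := by
  obtain ⟨hu, hv⟩ := notMem_symm hx hy
  have h1 := dlemma huv hxy hx hy f
  have h2 := dlemma hxy huv hu hv f
  rw [ip_comm] at h2
  rw [ip_jt huv hx hy, ip_jt hxy hu hv]
  linarith

end Crest.Agent.R299
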