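import Mathlib
import Crest.Agent.R299.Three

/-!
The three-row inequality, second stage.
-/

set_option autoImplicit false
set_option linter.unusedSectionVars false

open Finset

namespace Crest.Agent.R299

variable {C : Type} [Fintype C] [DecidableEq C]
variable {x y z : C → Fin 3 → Bool} {a a' b : Fin 3} {i j : C}

/-- move a letter and a hole from row `a` to row `a'` -/
def mv (a a' : Fin 3) (i j : C) (z : C → Fin 3 → Bool) : C → Fin 3 → Bool :=
  fun c => if c = i ∨ c = j then z c ∘ Equiv.swap a a' else z c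

lemma mv_mv (a a' : Fin 3) (i j : C) (z : C → Fin 3 → Bool) :
    mv a a' i j (mv a a' i j z) = z := by
  funext c d
  unfold mv
  split_ifs <;> simp

lemma mv_comm (a a' : Fin 3) (i j : C) (z : C → Fin 3 → Bool) :
    mv a a' i j z = mv a' a i j z := by
  unfold mv; rw [Equiv.swap_comm]

lemma sum_mv (φ : (Fin 3 → Bool) → ℤ) (hij : i ≠ j) :
    ∑ c, φ (mv a a' i j z c) = ∑ c, φ (z c) + (φ (z i ∘ Equiv.swap a a') - φ (z i)) +
      (φ (z j ∘ Equiv.swap a a') - φ (z j)) := by
  have : ∀ c, φ (mv a a' i j z c) = φ (z c) +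
      (if c = i then φ (z i ∘ Equiv.swap a a') - φ (z i) else 0) +
      (if c = j then φ (z j ∘ Equiv.swap a a') - φ (z j) else 0) := by
    intro c
    unfold mv
    by_cases h1 : c = i
    · subst h1; simp [hij]
    · by_cases h2 : c = j
      · subst h2; simp [h1]
      · simp [h1, h2]
  simp [this, sum_add_distrib]

lemma mv_spec (h1 : isLet (z i) a) (h2 : isHol (z j) a) (ha : a ≠ a') :
    kE (mv a a' i j z) = kE z ∧ qq a (mv a a' i j z) = qq a z - 1 ∧
      qq a' (mv a a' i j z) = qq a' z + 1 ∧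
      (∀ b, b ≠ a → b ≠ a' → qq b (mv a a' i j z) = qq b z) ∧
      isLet (mv a a' i j z i) a' ∧ isHol (mv a a' i j z j) a' := by
  have hij : i ≠ j := by
    rintro rfl
    exact let_not_hol _ _ _ h1 h2
  have h3 := let_swap _ a a' h1
  have h4 := hol_swap _ a a' h2
  have hq : ∀ b, qq b (mv a a' i j z) = qq b z + ((if b = a' then 1 else 0) -
      (if b = a then 1 else 0)) := by
    intro b
    have := sum_mv (a := a) (a' := a') (z := z) (fun v => if isHol v b then 1 else 0) hij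
    simp only [let_not_hol _ _ b h1, let_not_hol _ _ b h3, hol_unique _ _ b h2,
      hol_unique _ _ b h4, if_false, sub_self, add_zero] at this
    exact this
  refine ⟨kE_eq_iff.2 ⟨fun c => ?_, fun b => ?_⟩, ?_, ?_, fun b hb hb' => ?_, ?_, ?_⟩
  · unfold mv; split_ifs
    · exact s3_swap _ _ _
    · rfl
  · have := sum_mv (a := a) (a' := a') (z := z) (fun v => bi (v b)) hij
    have h5 := let_hol_bi _ _ _ b h1 h2
    have h6 := let_hol_bi _ _ _ b h3 h4
    unfold rs
    linarith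
  · rw [hq]; simp [ha, sub_eq_add_neg]
  · rw [hq]; simp [ha.symm]
  · rw [hq]; simp [hb, hb']
  · simpa [mv] using h3
  · simpa [mv] using h4

lemma pp_mul_qq (a : Fin 3) (z : C → Fin 3 → Bool) : ((pp a z * qq a z : ℤ) : ℝ) =
    ∑ i, ∑ j, if isLet (z i) a ∧ isHol (z j) a then 1 else 0 := by
  rw [pp, qq, sum_mul_sum]
  push_cast
  refine sum_congr rfl fun i _ => sum_congr rfl fun j _ => ?_
  by_cases h1 : isLet (z i) a <;> by_cases h2 : isHol (z j) a <;> simp [h1, h2]

/-- detailed balance -/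
lemma balance (ha : a ≠ a') (hb : b ≠ a) (hb' : b ≠ a') (hE : kE x = kE y)
    (hq : qq a x = qq a y + 1) {h : (C → Fin 3 → Bool) → ℝ} (hh : Meas (kq b) h) :
    ∑ z ∈ fib (kq a) x, h z * ((pp a z * qq a z : ℤ) : ℝ) =
      ∑ z ∈ fib (kq a) y, h z * ((pp a' z * qq a' z : ℤ) : ℝ) := by
  classical
  have key : ∀ (x : C → Fin 3 → Bool) (a' : Fin 3),
      ∑ z ∈ fib (kq a) x, h z * ((pp a' z * qq a' z : ℤ) : ℝ) =
      ∑ i, ∑ j, ∑ z, if kq a z = kq a x ∧ isLet (z i) a' ∧ isHol (z j) a' then h z else 0 := by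
    intro x a'
    simp only [pp_mul_qq, mul_sum]
    rw [sum_comm]
    refine sum_congr rfl fun i _ => ?_
    rw [sum_comm]
    refine sum_congr rfl fun j _ => ?_
    rw [show fib (kq a) x = univ.filter fun z => kq a z = kq a x by ext; simp, sum_filter]
    refine sum_congr rfl fun z _ => ?_
    by_cases h1 : kq a z = kq a x <;> simp [h1]
  rw [key, key]
  refine sum_congr rfl fun i _ => sum_congr rfl fun j _ => ?_
  rw [← Equiv.sum_comp (Function.Involutive.toPerm (mv a a' i j) (mv_mv a a' i j))]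
  refine sum_congr rfl fun z _ => ?_
  simp only [Function.Involutive.coe_toPerm]
  by_cases h1 : kq a z = kq a y ∧ isLet (z i) a' ∧ isHol (z j) a'
  · obtain ⟨h2, h3, h4, h5, h6, h7⟩ := mv_spec h1.2.1 h1.2.2 ha.symm
    rw [mv_comm] at h2 h3 h4 h5 h6 h7
    obtain ⟨h8, h9⟩ := kq_eq_iff.1 h1.1
    rw [if_pos h1, if_pos ⟨kq_eq_iff.2 ⟨by rw [h2, h8, hE], by rw [h4, h9, hq]⟩, h6, h7⟩]
    exact hh _ _ (kq_eq_iff.2 ⟨h2, h5 b hb' hb⟩)
  · rw [if_neg h1, if_neg]
    rintro ⟨h8, h9, h10⟩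
    obtain ⟨h2, h3, h4, h5, h6, h7⟩ := mv_spec h9 h10 ha
    rw [mv_mv] at h2 h3 h4 h5 h6 h7
    obtain ⟨h11, h12⟩ := kq_eq_iff.1 h8
    exact h1 ⟨kq_eq_iff.2 ⟨by rw [h2, h11, hE], by omega⟩, h6, h7⟩

lemma third : ∀ a b : Fin 3, b ≠ a → ∃ a', a ≠ a' ∧ b ≠ a' ∧
    ((b = a + 1 ∧ a' = a + 2) ∨ (b = a + 2 ∧ a' = a + 1)) := by decide

/-- more holes in row `a` means stochastically fewer holes in row `b` -/
lemma mono_CE (hb : b ≠ a) (hE : kE x = kE y) (hq : qq a x = qq a y + 1)
    {h : (C → Fin 3 → Bool) → ℝ}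
    (hh : ∀ z w, kE z = kE w → qq b z ≤ qq b w → h z ≤ h w) :
    CE (kq a) h x ≤ CE (kq a) h y := by
  obtain ⟨a', ha, hb', h3⟩ := third a b hb
  have hm : Meas (kq b) h := fun z w hzw => by
    obtain ⟨h1, h2⟩ := kq_eq_iff.1 hzw
    exact le_antisymm (hh _ _ h1 h2.le) (hh _ _ h1.symm h2.ge)
  have h1 := balance ha hb hb' hE hq hm
  have h2 := balance ha hb hb' hE hq (h := fun _ => 1) fun _ _ _ => rfl
  have hc : ∀ z ∈ fib (kq a) x, ((pp a z * qq a z : ℤ) : ℝ) = ((pp a x * qq a x : ℤ) : ℝ) := by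
    intro z hz
    obtain ⟨h4, h5⟩ := kq_eq_iff.1 (mem_fib.1 hz)
    have := pp_sub_qq h4 a
    rw [h5, show pp a z = pp a x by linarith]
  have hw : (0 : ℝ) < ((pp a x * qq a x : ℤ) : ℝ) := by
    have h4 := pp_sub_qq hE a
    have h5 := pp_nonneg a y
    have h6 := qq_nonneg a y
    exact_mod_cast mul_pos (by linarith) (by linarith)
  rw [sum_congr rfl fun z hz => by rw [hc z hz], ← sum_mul] at h1 h2
  simp only [sum_const, nsmul_eq_mul, mul_one, one_mul] at h2
  have hanti : AntivaryOn h (fun z => ((pp a' z * qq a' z : ℤ) : ℝ)) (fib (kq a) y) := by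
    intro z hz w hw hlt
    obtain ⟨h4, h5⟩ := kq_eq_iff.1 (mem_fib.1 hz)
    obtain ⟨h6, h7⟩ := kq_eq_iff.1 (mem_fib.1 hw)
    have h8 : kE w = kE z := h6.trans h4.symm
    refine hh _ _ h8 ?_
    by_contra hcon
    have h9 := qq_sum h8 a
    have h10 : qq a' w < qq a' z := by
      rcases h3 with ⟨rfl, rfl⟩ | ⟨rfl, rfl⟩ <;> omega
    have h11 := pp_sub_qq h8 a'
    have h12 : pp a' z * qq a' z < pp a' w * qq a' w := by
      dsimp only at hlt
      exact_mod_cast hlt
    have := pp_nonneg a' w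
    have := qq_nonneg a' w
    nlinarith
  have h4 := hanti.card_mul_sum_le_sum_mul_sum
  rw [← h1, ← h2] at h4
  unfold CE
  rw [div_le_div_iff₀ (card_fib_pos _ _) (card_fib_pos _ _)]
  nlinarith

lemma exists_dec (hE : kE x = kE y) (hq : qq b y < qq b x) :
    ∃ x', kE x' = kE x ∧ qq b x' = qq b x - 1 := by
  have h1 : ∃ i, isLet (x i) b := by
    by_contra hcon
    push Not at hcon
    have h2 : pp b x = 0 := by simp [pp, hcon]
    have := pp_sub_qq hE b
    have := pp_nonneg b y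
    omega
  have h2 : ∃ j, isHol (x j) b := by
    by_contra hcon
    push Not at hcon
    have h2 : qq b x = 0 := by simp [qq, hcon]
    have := qq_nonneg b y
    omega
  obtain ⟨i, hi⟩ := h1
  obtain ⟨j, hj⟩ := h2
  obtain ⟨h3, h4, -⟩ := mv_spec (a' := b + 1) hi hj (by clear * -; revert b; decide)
  exact ⟨_, h3, h4⟩

lemma lipschitz {f : (C → Fin 3 → Bool) → ℝ} (hf : Meas (kq b) f) {G : ℝ}
    (hG : ∀ z w, kE z = kE w → qq b z = qq b w + 1 → |f z - f w| ≤ G) (z w : C → Fin 3 → Bool)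
    (hE : kE z = kE w) (hq : qq b z ≤ qq b w) : |f w - f z| ≤ G * (qq b w - qq b z) := by
  obtain ⟨m, hm⟩ : ∃ m : ℕ, qq b w = qq b z + m := ⟨(qq b w - qq b z).toNat, by omega⟩
  induction m generalizing w with
  | zero => rw [hf w z (kq_eq_iff.2 ⟨hE.symm, by simpa using hm⟩), hm]; simp
  | succ m ih =>
    obtain ⟨w', h1, h2⟩ := exists_dec hE.symm (b := b) (by omega)
    have h3 := ih w' (hE.trans h1.symm) (by omega) (by push_cast at hm; omega)
    have h4 := hG w w' h1.symm (by omega)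
    have h5 : ((qq b w' : ℤ) : ℝ) = qq b w - 1 := by rw [h2]; push_cast; ring
    rw [h5] at h3
    calc |f w - f z| ≤ |f w - f w'| + |f w' - f z| := abs_sub_le _ _ _
      _ ≤ _ := by linarith

/-- Stage 2 of the maximum principle. -/
lemma stage2 (F : Fin 3 → (C → Fin 3 → Bool) → ℝ) (hF : ∀ a, Meas (kq a) (F a)) {Λ : ℝ}
    (hΛ : 2 < Λ) (heq : ∀ a, (Λ - 1) • F a = CE (kq a) (F (a + 1) + F (a + 2))) (a : Fin 3) :
    Meas kE (F a) := by
  classical
  have hzero : ∀ (a : Fin 3) (z w : C → Fin 3 → Bool), kE z = kE w → qq a z = qq a w + 1 →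
      |F a z - F a w| ≤ 0 := by
    by_contra hcon
    push Not at hcon
    obtain ⟨a₀, x₀, y₀, h₀, h₀', hpos⟩ := hcon
    obtain ⟨⟨a, x, y⟩, hmem, hmax⟩ := exists_max_image
      (univ.filter fun t : Fin 3 × (C → Fin 3 → Bool) × (C → Fin 3 → Bool) =>
        kE t.2.1 = kE t.2.2 ∧ qq t.1 t.2.1 = qq t.1 t.2.2 + 1)
      (fun t => |F t.1 t.2.1 - F t.1 t.2.2|) ⟨(a₀, x₀, y₀), by simpa using ⟨h₀, h₀'⟩⟩
    simp only [mem_filter, mem_univ, true_and] at hmem hmax
    set G := |F a x - F a y| with hG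
    have hG0 : 0 < G := lt_of_lt_of_le hpos (hmax (a₀, x₀, y₀) ⟨h₀, h₀'⟩)
    have hlip := fun b => lipschitz (hF b) (G := G) fun z w h1 h2 => hmax (b, z, w) ⟨h1, h2⟩
    have hb : ∀ b, b ≠ a → |CE (kq a) (F b) x - CE (kq a) (F b) y| ≤
        G * (CE (kq a) (fun z => (qq b z : ℝ)) y - CE (kq a) (fun z => (qq b z : ℝ)) x) := by
      intro b hb
      have h1 := mono_CE hb hmem.1 hmem.2 (h := G • (fun z => (qq b z : ℝ)) + F b)
        fun z w h1 h2 => by
          have := abs_le.1 (hlip b z w h1 h2)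
          simp only [Pi.add_apply, Pi.smul_apply, smul_eq_mul]
          linarith [this.1]
      have h2 := mono_CE hb hmem.1 hmem.2 (h := G • (fun z => (qq b z : ℝ)) - F b)
        fun z w h1 h2 => by
          have := abs_le.1 (hlip b z w h1 h2)
          simp only [Pi.sub_apply, Pi.smul_apply, smul_eq_mul]
          linarith [this.2]
      simp only [CE_add, CE_sub, CE_smul, Pi.add_apply, Pi.sub_apply, Pi.smul_apply,
        smul_eq_mul] at h1 h2
      rw [abs_le]
      constructor <;> linarith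
    have hs : ∀ z, kE z = kE x → CE (kq a) (fun z => (qq (a + 1) z : ℝ)) z +
        CE (kq a) (fun z => (qq (a + 2) z : ℝ)) z =
        (qq a x + qq (a + 1) x + qq (a + 2) x : ℤ) - qq a z := by
      intro z hz
      rw [← Pi.add_apply (CE _ _), ← CE_add,
        ← CE_const (kq a) ((qq a x + qq (a + 1) x + qq (a + 2) x : ℤ) - qq a z : ℝ) z]
      refine CE_congr fun w hw => ?_
      obtain ⟨h1, h2⟩ := kq_eq_iff.1 hw
      rw [← qq_sum (h1.trans hz) a, ← h2]
      simp only [Pi.add_apply]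
      push_cast
      ring
    have h1 := hb (a + 1) (by clear * -; revert a; decide)
    have h2 := hb (a + 2) (by clear * -; revert a; decide)
    have h3 := hs x rfl
    have h4 := hs y hmem.1.symm
    have h5 : ((qq a x : ℤ) : ℝ) = qq a y + 1 := by rw [hmem.2]; push_cast; ring
    have h6 := congrFun (heq a) x
    have h7 := congrFun (heq a) y
    simp only [CE_add, Pi.add_apply, Pi.smul_apply, smul_eq_mul] at h6 h7
    have h8 : (Λ - 1) * G ≤ G := by
      calc (Λ - 1) * G = |(Λ - 1) * F a x - (Λ - 1) * F a y| := by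
            rw [← mul_sub, abs_mul, abs_of_pos (by linarith : 0 < Λ - 1)]
        _ ≤ |CE (kq a) (F (a + 1)) x - CE (kq a) (F (a + 1)) y| +
            |CE (kq a) (F (a + 2)) x - CE (kq a) (F (a + 2)) y| := by
            rw [h6, h7]
            refine le_trans (le_of_eq ?_) (abs_add_le _ _)
            congr 1; ring
        _ ≤ G := by nlinarith
    nlinarith
  intro z w hzw
  have hlip := lipschitz (hF a) (hzero a)
  rcases le_total (qq a z) (qq a w) with h | h
  · have := hlip z w hzw h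
    rw [zero_mul, abs_nonpos_iff, sub_eq_zero] at this
    exact this.symm
  · have := hlip w z hzw.symm h
    rwa [zero_mul, abs_nonpos_iff, sub_eq_zero] at this

lemma sum_fin3 {M : Type} [AddCommMonoid M] (F : Fin 3 → M) (a : Fin 3) :
    ∑ b, F b = F a + (F (a + 1) + F (a + 2)) := by
  rw [Fin.sum_univ_three]
  fin_cases a
  · simp [add_assoc]
  · simp; abel
  · simp; abel

/-- The three-row inequality off the constants. -/
theorem three_le (g : (C → Fin 3 → Bool) → ℝ) (hg : CE kE g = 0) :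
    ∑ a, ip g (CE (kR a) g) ≤ 2 * ip g g := by
  have hRE : ∀ (a : Fin 3) (x y : C → Fin 3 → Bool), kR a x = kR a y → kE x = kE y :=
    fun a x y h => (kR_eq_iff.1 h).1
  have := eigen_lemma (kE (C := C)) (fun f => (-1 : ℝ) • ∑ a, CE (kR a) f)
    (fun f g => by simp only [CE_add, sum_add_distrib, smul_add])
    (fun c f => by simp only [CE_smul, ← smul_sum]; rw [smul_comm])
    (fun f g => by simp only [ip_smul_left, ip_smul_right, ip_sum_left, ip_sum_right, ip_CE])
    (-2) ?_ g hg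
  · simp only [ip_smul_right, ip_sum_right] at this
    linarith
  intro g μ hg0 hg hm
  by_contra hcon
  have hΛ : 2 < -μ := by linarith
  set F : Fin 3 → (C → Fin 3 → Bool) → ℝ := fun a => CE (kR a) g with hFdef
  have hEF : ∀ a, CE kE (F a) = 0 := fun a => by rw [hFdef, CE_CE_of_le' (hRE a), hg]
  have h1 : (-1 : ℝ) • ∑ a, F a - μ • g = 0 := by
    rw [← hm.CE_eq, CE_sub, CE_smul, CE_smul, sum_fin3 _ 0, CE_add, CE_add, hEF, hEF, hEF, hg]
    simp
  have h2 : ∑ a, F a = (-μ) • g := by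
    rw [neg_one_smul, sub_eq_zero] at h1
    rw [neg_smul, ← h1, neg_neg]
  have hF : ∀ a, Meas (kR a) (F a) := fun a => meas_CE _ _
  have heq : ∀ a, (-μ - 1) • F a = CE (kR a) (F (a + 1) + F (a + 2)) := by
    intro a
    have h3 := congrArg (CE (kR a)) h2
    rw [sum_fin3 _ a, CE_add, (hF a).CE_eq, CE_smul] at h3
    rw [sub_smul, one_smul, ← h3]
    abel
  have hq : ∀ a, Meas (kq a) (F a) := fun a => meas_kq (hF a) (stage1 F hF hΛ heq a)
  have heq' : ∀ a, (-μ - 1) • F a = CE (kq a) (F (a + 1) + F (a + 2)) := by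
    intro a
    rw [← CE_CE_of_le' (κ := kR a) (fun x y h => kq_of_kR h), ← heq, CE_smul, (hq a).CE_eq]
  have h4 : ∀ a, F a = 0 := fun a => by rw [← (stage2 F hq hΛ heq' a).CE_eq, hEF]
  simp only [h4, sum_const_zero] at h2
  rcases smul_eq_zero.1 h2.symm with h | h
  · linarith
  · exact hg0 h

/-- The three-row Bochner inequality. -/
theorem three_bochner (f : (C → Fin 3 → Bool) → ℝ) :
    ∑ a, ip (f - CE (kR a) f) (f - CE (kR a) f) ≤
      ip (∑ a, (f - CE (kR a) f)) (∑ a, (f - CE (kR a) f)) := by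
  have hRE : ∀ (a : Fin 3) (x y : C → Fin 3 → Bool), kR a x = kR a y → kE x = kE y :=
    fun a x y h => (kR_eq_iff.1 h).1
  set g := f - CE kE f with hgdef
  have hg : CE kE g = 0 := by rw [hgdef, CE_sub, CE_CE, sub_self]
  have h1 : ∀ a, f - CE (kR a) f = g - CE (kR a) g := fun a => by
    rw [hgdef, CE_sub, CE_CE_of_le (hRE a)]; abel
  simp only [h1]
  clear_value g
  have h2 : ∀ a : Fin 3, ip (g - CE (kR a) g) (g - CE (kR a) g) = ip g (g - CE (kR a) g) := by
    intro a
    rw [ip_sub_left, ip_CE, CE_sub, CE_CE, sub_self, ip_zero_right, sub_zero]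
  simp only [h2]
  rw [← ip_sum_right]
  set k := ∑ a, (g - CE (kR a) g) with hk
  have h3 : ip g g ≤ ip g k := by
    have := three_le g hg
    rw [hk, ip_sum_right]
    simp only [ip_sub_right, sum_sub_distrib, sum_const, card_univ, Fintype.card_fin,
      nsmul_eq_mul, Nat.cast_ofNat]
    linarith
  have h4 := ip_sq_le g k
  have h5 := ip_self_nonneg g
  have h6 := ip_self_nonneg k
  by_contra hcon
  push Not at hcon
  nlinarith

end Crest.Agent.R299
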