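import Mathlib
import Crest.Agent.R299.Three2
import Crest.Agent.R299.Gr

/-!
Three vertices of a graph form a three-row system with one virtual column.
-/

set_option autoImplicit false
set_option linter.unusedSectionVars false

open Finset

namespace Crest.Agent.R299

variable {V W : Type} [Fintype V] [DecidableEq V] [Fintype W] [DecidableEq W]

/-- adjacency rebuilt from the three rows and the rest -/
def adjS (z : Option W → Fin 3 → Bool) (R : Gr W) : Fin 3 ⊕ W → Fin 3 ⊕ W → Bool
  | .inl i, .inl j => if i = j then false else !z none (-(i + j))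
  | .inl i, .inr w => z (some w) i
  | .inr w, .inl i => z (some w) i
  | .inr w, .inr w' => R.1 w w'

lemma adjS_symm (z : Option W → Fin 3 → Bool) (R : Gr W) (p q : Fin 3 ⊕ W) :
    adjS z R p q = adjS z R q p := by
  rcases p with i | w <;> rcases q with j | w'
  · simp only [adjS, eq_comm (a := i), add_comm i]
  · rfl
  · rfl
  · exact R.symm _ _

/-- the three rows -/
def rows (φ : Fin 3 ⊕ W ≃ V) (A : Gr V) : Option W → Fin 3 → Bool
  | some w, a => A.1 (φ (.inl a)) (φ (.inr w))
  | none, a => !A.1 (φ (.inl (a + 1))) (φ (.inl (a + 2)))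

/-- the rest -/
def rest (φ : Fin 3 ⊕ W ≃ V) (A : Gr V) : Gr W :=
  ⟨fun w w' => A.1 (φ (.inr w)) (φ (.inr w')), fun _ _ => A.symm _ _, fun _ => A.irr _⟩

lemma fin3_cases : ∀ i j : Fin 3, i ≠ j →
    (-(i + j) + 1 = i ∧ -(i + j) + 2 = j) ∨ (-(i + j) + 1 = j ∧ -(i + j) + 2 = i) := by decide

/-- the decomposition -/
def tri (φ : Fin 3 ⊕ W ≃ V) : Gr V ≃ (Option W → Fin 3 → Bool) × Gr W where
  toFun A := (rows φ A, rest φ A)
  invFun p := ⟨fun a b => adjS p.1 p.2 (φ.symm a) (φ.symm b), fun a b => adjS_symm _ _ _ _,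
    fun a => by rcases φ.symm a with i | w <;> simp [adjS]⟩
  left_inv A := by
    refine Gr.ext fun a b => ?_
    obtain ⟨a, rfl⟩ := φ.surjective a
    obtain ⟨b, rfl⟩ := φ.surjective b
    simp only [Equiv.symm_apply_apply]
    rcases a with i | w <;> rcases b with j | w' <;> simp only [adjS, rows, rest]
    · split_ifs with h
      · simp [h]
      · rcases fin3_cases i j h with ⟨h1, h2⟩ | ⟨h1, h2⟩
        · rw [h1, h2, Bool.not_not]
        · rw [h1, h2, Bool.not_not, A.symm]
    · exact A.symm _ _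
  right_inv p := by
    refine Prod.ext ?_ (Gr.ext fun w w' => by simp [rest, adjS])
    funext c a
    rcases c with _ | w
    · simp only [rows, Equiv.symm_apply_apply, adjS]
      rw [if_neg (by revert a; decide), Bool.not_not,
        show -(a + 1 + (a + 2)) = a by revert a; decide]
    · simp [rows, adjS]

lemma dg_inr (φ : Fin 3 ⊕ W ≃ V) (A : Gr V) (w : W) :
    dg A (φ (.inr w)) = s3 (rows φ A (some w)) + dg (rest φ A) w := by
  unfold dg
  rw [← φ.sum_comp, Fintype.sum_sum_type, Fin.sum_univ_three]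
  simp only [s3, rows, rest, A.symm (φ (.inr w)) (φ (.inl _))]

lemma bi_not : ∀ p : Bool, bi (!p) = 1 - bi p := by decide

lemma dg_inl (φ : Fin 3 ⊕ W ≃ V) (A : Gr V) (a : Fin 3) :
    dg A (φ (.inl a)) = rs (rows φ A) a + 2 - s3 (rows φ A none) := by
  unfold dg rs
  rw [← φ.sum_comp, Fintype.sum_sum_type, Fintype.sum_option, Fin.sum_univ_three]
  simp only [s3, rows, bi_not]
  have h1 := A.symm (φ (.inl 0)) (φ (.inl 1))
  have h2 := A.symm (φ (.inl 0)) (φ (.inl 2))
  have h3 := A.symm (φ (.inl 1)) (φ (.inl 2))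
  have h0 : bi false = 0 := rfl
  fin_cases a <;> simp [h0, h1, h2, h3] <;> ring

lemma kp_tri (φ : Fin 3 ⊕ W ≃ V) (a : Fin 3) (A B : Gr V) :
    kp (φ (.inl (a + 1))) (φ (.inl (a + 2))) A = kp (φ (.inl (a + 1))) (φ (.inl (a + 2))) B ↔
      kR a (tri φ A).1 = kR a (tri φ B).1 ∧ (tri φ A).2 = (tri φ B).2 := by
  change _ ↔ kR a (rows φ A) = kR a (rows φ B) ∧ rest φ A = rest φ B
  have h1 : a ≠ a + 1 := by clear * -; revert a; decide
  have h2 : a ≠ a + 2 := by clear * -; revert a; decide
  have h3 : a + 1 ≠ a + 2 := by clear * -; revert a; decide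
  constructor
  · intro h
    obtain ⟨h4, h5⟩ := kp_eq_iff.1 h
    have h6 : rest φ A = rest φ B := Gr.ext fun w w' => h4 _ _ (by simp) (by simp) (by simp) (by simp)
    have h7 : ∀ w, s3 (rows φ A (some w)) = s3 (rows φ B (some w)) := fun w => by
      have := congrFun h5 (φ (.inr w))
      rw [dg_inr, dg_inr, h6] at this
      linarith
    have h8 : ∀ b, rs (rows φ A) b - s3 (rows φ A none) = rs (rows φ B) b - s3 (rows φ B none) :=
      fun b => by
        have := congrFun h5 (φ (.inl b))
        rw [dg_inl, dg_inl] at this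
        linarith
    have h9 : ∀ z : Option W → Fin 3 → Bool,
        rs z 0 + rs z 1 + rs z 2 = s3 (z none) + ∑ w, s3 (z (some w)) := fun z => by
      simp only [rs, ← sum_add_distrib]
      rw [Fintype.sum_option]
      rfl
    have h10 : s3 (rows φ A none) = s3 (rows φ B none) := by
      have h11 := h9 (rows φ A)
      have h12 := h9 (rows φ B)
      simp only [h7] at h11
      linarith [h8 0, h8 1, h8 2]
    refine ⟨kR_eq_iff.2 ⟨kE_eq_iff.2 ⟨fun c => ?_, fun b => by linarith [h8 b]⟩, fun c => ?_⟩, h6⟩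
    · rcases c with _ | w
      exacts [h10, h7 w]
    · rcases c with _ | w
      · simp only [rows]
        rw [edge_eq (by simp [h3]) h]
      · exact h4 _ _ (by simp [h1]) (by simp [h2]) (by simp) (by simp)
  · rintro ⟨h4, h5⟩
    obtain ⟨h6, h7⟩ := kR_eq_iff.1 h4
    obtain ⟨h8, h9⟩ := kE_eq_iff.1 h6
    refine kp_eq_iff.2 ⟨fun p q hp hp' hq hq' => ?_, funext fun p => ?_⟩
    · obtain ⟨p, rfl⟩ := φ.surjective p
      obtain ⟨q, rfl⟩ := φ.surjective q
      have key : ∀ a i : Fin 3, i ≠ a + 1 → i ≠ a + 2 → i = a := by decide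
      rcases p with i | w <;> rcases q with j | w'
      · rw [key a i (by simpa using hp) (by simpa using hp'),
          key a j (by simpa using hq) (by simpa using hq'), A.irr, B.irr]
      · rw [key a i (by simpa using hp) (by simpa using hp')]
        exact h7 (some w')
      · rw [key a j (by simpa using hq) (by simpa using hq'), A.symm, B.symm]
        exact h7 (some w)
      · exact congrFun (congrFun (congrArg Gr.adj h5) w) w'
    · obtain ⟨p, rfl⟩ := φ.surjective p
      rcases p with i | w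
      · rw [dg_inl, dg_inl, h8, h9]
      · rw [dg_inr, dg_inr, h8, h5]

lemma triple_bochner (φ : Fin 3 ⊕ W ≃ V) (f : Gr V → ℝ) :
    ∑ a, ip (f - CE (kp (φ (.inl (a + 1))) (φ (.inl (a + 2)))) f)
        (f - CE (kp (φ (.inl (a + 1))) (φ (.inl (a + 2)))) f) ≤
      ip (∑ a, (f - CE (kp (φ (.inl (a + 1))) (φ (.inl (a + 2)))) f))
        (∑ a, (f - CE (kp (φ (.inl (a + 1))) (φ (.inl (a + 2)))) f)) := by
  simp only [ip_prod (tri φ)]
  rw [sum_comm]
  refine sum_le_sum fun r _ => ?_
  have := three_bochner fun z => f ((tri φ).symm (z, r))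
  simp only [Finset.sum_apply, Pi.sub_apply, CE_prod (tri φ) (kp_tri φ _)]
  simpa only [ip, Finset.sum_apply, Pi.sub_apply] using this

theorem adj_nonneg {a b c : V} (hab : a ≠ b) (hac : a ≠ c) (hbc : b ≠ c) (f : Gr V → ℝ) :
    0 ≤ ip (f - CE (kp a b) f) (f - CE (kp a c) f) + ip (f - CE (kp b c) f) (f - CE (kp b a) f) +
      ip (f - CE (kp c a) f) (f - CE (kp c b) f) := by
  classical
  let t : Fin 3 → V := ![a, b, c]
  have ht : Function.Injective t := by
    intro i j h
    fin_cases i <;> fin_cases j <;> simp_all [t, eq_comm]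
  let φ : Fin 3 ⊕ {w // w ∉ Set.range t} ≃ V :=
    (Equiv.sumCongr (Equiv.ofInjective t ht) (Equiv.refl _)).trans (Equiv.sumCompl _)
  have hφ : ∀ i, φ (.inl i) = t i := fun i => rfl
  have := triple_bochner φ f
  simp only [hφ, Fin.sum_univ_three, ip_add_left, ip_add_right] at this
  simp only [t, Fin.reduceAdd, Matrix.cons_val] at this
  rw [kp_comm a c, kp_comm b a, kp_comm c b]
  have h1 := ip_comm (f - CE (kp a b) f) (f - CE (kp c a) f)
  have h2 := ip_comm (f - CE (kp b c) f) (f - CE (kp a b) f)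
  have h3 := ip_comm (f - CE (kp c a) f) (f - CE (kp b c) f)
  linarith

end Crest.Agent.R299
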