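import Mathlib
import Crest.Agent.R299.Disj
import Crest.Agent.R299.Triple

/-!
The Bochner inequality for the sum of all pair heat baths and the spectral gap of switches.
-/

set_option autoImplicit false
set_option linter.unusedSectionVars false

open Finset

namespace Crest.Agent.R299

variable {V : Type} [Fintype V] [DecidableEq V]
variable {u v x y : V}

/-- one minus the pair heat bath -/
noncomputable def QQ (u v : V) (f : Gr V → ℝ) : Gr V → ℝ :=
  if u = v then 0 else f - CE (kp u v) f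

/-- the sum over ordered pairs -/
noncomputable def HH (f : Gr V → ℝ) : Gr V → ℝ := ∑ u, ∑ v, QQ u v f

/-- four distinct vertices -/
def valid (u v x y : V) : Prop :=
  u ≠ v ∧ x ≠ y ∧ x ∉ ({u, v} : Finset V) ∧ y ∉ ({u, v} : Finset V)

instance (u v x y : V) : Decidable (valid u v x y) := by unfold valid; infer_instance

lemma valid.symm (h : valid u v x y) : valid x y u v :=
  ⟨h.2.1, h.1, (notMem_symm h.2.2.1 h.2.2.2).1, (notMem_symm h.2.2.1 h.2.2.2).2⟩

@[simp] lemma QQ_self (u : V) (f : Gr V → ℝ) : QQ u u f = 0 := if_pos rfl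

lemma QQ_of_ne (h : u ≠ v) (f : Gr V → ℝ) : QQ u v f = f - CE (kp u v) f := if_neg h

lemma QQ_comm (u v : V) (f : Gr V → ℝ) : QQ u v f = QQ v u f := by
  simp only [QQ, eq_comm (a := u), kp_comm u v]

lemma ip_QQ (u v : V) (f g : Gr V → ℝ) : ip (QQ u v f) g = ip f (QQ u v g) := by
  unfold QQ
  split_ifs
  · simp
  · simp only [ip_sub_left, ip_sub_right, ip_CE]

lemma ip_QQ_self (u v : V) (f : Gr V → ℝ) : ip f (QQ u v f) = ip (QQ u v f) (QQ u v f) := by
  unfold QQ
  split_ifs
  · simp
  · rw [ip_sub_left, ip_CE, CE_sub, CE_CE, sub_self, ip_zero_right, sub_zero]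

lemma sum_split (huv : u ≠ v) (J : V → V → ℝ) (h0 : ∀ x, J x x = 0) (hs : ∀ x y, J x y = J y x) :
    ∑ x, ∑ y, J x y = ∑ x ∈ ({u, v} : Finset V)ᶜ, ∑ y ∈ ({u, v} : Finset V)ᶜ, J x y +
      2 * ∑ y, J u y + 2 * ∑ y, J v y - 2 * J u v := by
  have h1 : ∀ K : V → ℝ, ∑ x ∈ ({u, v} : Finset V)ᶜ, K x = ∑ x, K x - K u - K v := by
    intro K
    rw [← sum_compl_add_sum {u, v} K, sum_pair huv]
    ring
  have h2 : ∑ x, J x u = ∑ y, J u y := sum_congr rfl fun x _ => hs x u
  have h3 : ∑ x, J x v = ∑ y, J v y := sum_congr rfl fun x _ => hs x v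
  simp only [h1, sum_sub_distrib, h0]
  rw [h2, h3, hs v u]
  ring

lemma jt_self (u v x : V) (g : Gr V → ℝ) : jt u v x x g = 0 := by
  funext A
  have : ¬ act u v x x A := fun h => h.2.2 rfl
  simp [jt, sw, this]

lemma sum_valid (u v : V) (J : V → V → ℝ) (h0 : ∀ x, J x x = 0) (h1 : u = v → ∀ x y, J x y = 0) :
    ∑ x ∈ ({u, v} : Finset V)ᶜ, ∑ y ∈ ({u, v} : Finset V)ᶜ, J x y =
      ∑ x, ∑ y, if valid u v x y then J x y else 0 := by
  rw [← Finset.sum_ite_mem_eq]
  refine sum_congr rfl fun x _ => ?_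
  rw [← Finset.sum_ite_mem_eq ({u, v} : Finset V)ᶜ]
  split_ifs with hx
  · refine sum_congr rfl fun y _ => ?_
    by_cases h2 : u = v
    · simp [h1 h2]
    · by_cases h3 : x = y
      · simp [h3, h0]
      · simp only [valid, ne_eq, h2, h3, mem_compl.1 hx, not_false_eq_true, true_and, mem_compl]
  · refine (sum_eq_zero fun y _ => if_neg fun h => hx (mem_compl.2 h.2.2.1)).symm

lemma johnson_QQ (u v : V) (f : Gr V → ℝ) : 2 * ip (QQ u v f) (QQ u v f) ≤
    ∑ x, ∑ y, if valid u v x y then ip (QQ u v f) (jt u v x y (QQ u v f)) else 0 := by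
  rw [← sum_valid u v (fun x y => ip (QQ u v f) (jt u v x y (QQ u v f)))
    (fun x => by simp [jt_self]) (fun h => by simp [h])]
  by_cases h : u = v
  · simp [h]
  · have := johnson h (QQ u v f) (by rw [QQ_of_ne h, CE_sub, CE_CE, sub_self])
    simpa only [jo, ip_sum_right] using this

lemma sum4_comm (J : V → V → V → V → ℝ) :
    ∑ u, ∑ v, ∑ x, ∑ y, J u v x y = ∑ u, ∑ v, ∑ x, ∑ y, J x y u v := by
  calc ∑ u, ∑ v, ∑ x, ∑ y, J u v x y = ∑ p : V × V, ∑ q : V × V, J p.1 p.2 q.1 q.2 := by
        simp only [Fintype.sum_prod_type]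
    _ = ∑ q : V × V, ∑ p : V × V, J p.1 p.2 q.1 q.2 := sum_comm
    _ = _ := by simp only [Fintype.sum_prod_type]

theorem bochner (f : Gr V → ℝ) :
    4 * ∑ u, ∑ v, ip (QQ u v f) (QQ u v f) ≤ ip (HH f) (HH f) := by
  set D := ∑ u, ∑ v, ip (QQ u v f) (QQ u v f) with hD
  have h1 : ip (HH f) (HH f) = ∑ u, ∑ v, ∑ x, ∑ y, ip (QQ u v f) (QQ x y f) := by
    simp only [HH, ip_sum_left]
    simp only [ip_sum_right]
  have h2 : ∀ u v, ∑ x, ∑ y, ip (QQ u v f) (QQ x y f) =
      (∑ x, ∑ y, if valid u v x y then ip (QQ u v f) (QQ x y f) else 0) +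
      2 * ∑ y, ip (QQ u v f) (QQ u y f) + 2 * ∑ y, ip (QQ v u f) (QQ v y f) -
      2 * ip (QQ u v f) (QQ u v f) := by
    intro u v
    by_cases h : u = v
    · simp [h]
    · rw [sum_split h _ (fun x => by simp) (fun x y => by rw [QQ_comm x y]),
        sum_valid u v _ (fun x => by simp) (fun h' => absurd h' h), QQ_comm v u]
  have h3 : D ≤ ∑ u, ∑ v, ∑ y, ip (QQ u v f) (QQ u y f) := by
    set R : V → V → V → ℝ := fun u v y => if v = y then 0 else ip (QQ u v f) (QQ u y f) with hR
    have h4 : ∑ u, ∑ v, ∑ y, ip (QQ u v f) (QQ u y f) = D + ∑ u, ∑ v, ∑ y, R u v y := by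
      rw [hD, ← sum_add_distrib]
      refine sum_congr rfl fun u _ => ?_
      rw [← sum_add_distrib]
      refine sum_congr rfl fun v _ => ?_
      have : ∀ y, ip (QQ u v f) (QQ u y f) =
          (if v = y then ip (QQ u v f) (QQ u v f) else 0) + R u v y := by
        intro y
        simp only [hR]
        split_ifs with h
        · simp [h]
        · simp
      rw [sum_congr rfl fun y _ => this y, sum_add_distrib, sum_ite_eq, if_pos (mem_univ _)]
    have h5 : ∑ a, ∑ b, ∑ c, R b c a = ∑ u, ∑ v, ∑ y, R u v y := by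
      rw [sum_comm]
      exact sum_congr rfl fun _ _ => sum_comm
    have h6 : ∑ a, ∑ b, ∑ c, R c a b = ∑ u, ∑ v, ∑ y, R u v y := by
      rw [sum_congr rfl fun _ _ => sum_comm]
      exact sum_comm
    have h7 : 0 ≤ ∑ a, ∑ b, ∑ c, (R a b c + R b c a + R c a b) := by
      refine sum_nonneg fun a _ => sum_nonneg fun b _ => sum_nonneg fun c _ => ?_
      by_cases hab : a = b
      · simp [hR, hab]
      by_cases hac : a = c
      · simp [hR, hac]
      by_cases hbc : b = c
      · simp [hR, hbc]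
      simp only [hR, if_neg hab, if_neg hbc, if_neg (Ne.symm hac), QQ_of_ne hab, QQ_of_ne hac,
        QQ_of_ne hbc, QQ_of_ne (Ne.symm hab), QQ_of_ne (Ne.symm hac), QQ_of_ne (Ne.symm hbc)]
      exact adj_nonneg hab hac hbc f
    simp only [sum_add_distrib] at h7
    linarith
  have h4 : 2 * D ≤
      ∑ u, ∑ v, ∑ x, ∑ y, if valid u v x y then ip (QQ u v f) (QQ x y f) else 0 := by
    set W : V → V → V → V → ℝ := fun u v x y =>
      if valid u v x y then ip (QQ u v f) (jt u v x y (QQ u v f)) else 0 with hW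
    have h5 : 2 * D ≤ ∑ u, ∑ v, ∑ x, ∑ y, W u v x y := by
      simp only [hD, mul_sum]
      exact sum_le_sum fun u _ => sum_le_sum fun v _ => johnson_QQ u v f
    have h6 : ∑ u, ∑ v, ∑ x, ∑ y, (W u v x y + W x y u v) / 2 ≤
        ∑ u, ∑ v, ∑ x, ∑ y, if valid u v x y then ip (QQ u v f) (QQ x y f) else 0 := by
      refine sum_le_sum fun u _ => sum_le_sum fun v _ => sum_le_sum fun x _ =>
        sum_le_sum fun y _ => ?_
      by_cases h : valid u v x y
      · simp only [hW, if_pos h, if_pos h.symm, QQ_of_ne h.1, QQ_of_ne h.2.1]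
        exact dlemma' h.1 h.2.1 h.2.2.1 h.2.2.2 f
      · simp only [hW, if_neg h, if_neg fun h' : valid x y u v => h h'.symm]
        simp
    simp only [← sum_div, sum_add_distrib] at h6
    rw [← sum4_comm W] at h6
    linarith
  have h5 : ∑ u, ∑ v, ∑ y, ip (QQ v u f) (QQ v y f) = ∑ u, ∑ v, ∑ y, ip (QQ u v f) (QQ u y f) :=
    sum_comm
  rw [h1]
  simp only [h2, sum_add_distrib, sum_sub_distrib, ← mul_sum]
  linarith

lemma exists_z (A : Gr V) {U : Finset V} (hx : x ∈ U) (hy : y ∈ U)
    (h : ∑ z ∈ U, bi (A.1 x z) < ∑ z ∈ U, bi (A.1 y z)) :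
    ∃ z ∈ U, z ≠ x ∧ A.1 y z = true ∧ A.1 x z = false := by
  by_contra hcon
  push Not at hcon
  have h1 : ∑ z ∈ U, bi (A.1 x (Equiv.swap x y z)) = ∑ z ∈ U, bi (A.1 x z) := by
    refine sum_equiv (Equiv.swap x y) (fun z => ?_) fun _ _ => rfl
    rw [Equiv.swap_apply_def]
    split_ifs with h1 h2
    · simp [h1, hx, hy]
    · simp [h2, hx, hy]
    · rfl
  refine absurd h (not_lt.2 ?_)
  rw [← h1]
  refine sum_le_sum fun z hz => ?_
  rw [Equiv.swap_apply_def]
  split_ifs with h2 h3
  · rw [h2, A.symm]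
  · simp [h3]
  · have := hcon z hz h2
    revert this
    generalize A.1 y z = p; generalize A.1 x z = q; revert p q; decide

/-- connectivity of the switch graph -/
theorem meas_dg {g : Gr V → ℝ} (hg : ∀ u v x y, valid u v x y → ∀ A, g (sw u v x y A) = g A) :
    Meas dg g := by
  suffices h : ∀ (U : Finset V) (A B : Gr V), dg A = dg B →
      (∀ a b, a ∉ U → A.1 a b = B.1 a b) → g A = g B from
    fun A B hAB => h univ A B hAB (by simp)
  intro U
  induction U using Finset.induction_on with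
  | empty => intro A B _ h; rw [Gr.ext fun a b => h a b (by simp)]
  | insert v U hv ihU =>
  intro A B hd hU
  induction hm : (univ.filter fun w => A.1 v w ≠ B.1 v w).card using Nat.strong_induction_on
    generalizing A B with
  | _ m ih =>
  by_cases hall : ∀ w, A.1 v w = B.1 v w
  · refine ihU A B hd fun a b ha => ?_
    by_cases h : a = v
    · rw [h, hall]
    · exact hU a b (by simp [h, ha])
  have hmem : ∀ w, A.1 v w ≠ B.1 v w → w ∈ U := by
    intro w hw
    by_contra h
    by_cases h' : w = v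
    · simp [h'] at hw
    · exact hw (by rw [A.symm, B.symm, hU w v (by simp [h, h'])])
  have hd' : (∑ c, if A.1 v c = true then 1 else 0 : ℤ) = ∑ c, if B.1 v c = true then 1 else 0 :=
    congrFun hd v
  have hex : ∃ x y, (A.1 v x = true ∧ B.1 v x = false) ∧ A.1 v y = false ∧ B.1 v y = true := by
    push Not at hall
    obtain ⟨c, hc⟩ := hall
    cases hx : A.1 v c
    · obtain ⟨c', h3, h4⟩ := exists_opposite (c := c) hd'.symm (by simp_all) (by simp [hx])
      exact ⟨c', c, by simp_all, by simp_all⟩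
    · obtain ⟨c', h3, h4⟩ := exists_opposite (c := c) hd' hx (by simp_all)
      exact ⟨c, c', by simp_all, by simp_all⟩
  obtain ⟨x, y, ⟨h1, h2⟩, h3, h4⟩ := hex
  have hx : x ∈ U := hmem x (by simp [h1, h2])
  have hy : y ∈ U := hmem y (by simp [h3, h4])
  have hres : ∀ a, ∑ z ∈ U, bi (A.1 a z) + bi (A.1 v a) = ∑ z ∈ U, bi (B.1 a z) + bi (B.1 v a) := by
    intro a
    have h5 := congrFun hd a
    unfold dg at h5
    rw [← sum_compl_add_sum (insert v U), ← sum_compl_add_sum (insert v U), sum_insert hv,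
      sum_insert hv, sum_congr rfl (g := fun z => bi (B.1 a z)) fun z hz => by
        rw [A.symm, hU z a (mem_compl.1 hz), B.symm]] at h5
    rw [A.symm v, B.symm v]
    linarith
  have step : ∀ (A B : Gr V) (x y : V), dg A = dg B →
      (∀ a b, a ∉ insert v U → A.1 a b = B.1 a b) →
      (univ.filter fun w => A.1 v w ≠ B.1 v w).card = m → x ∈ U → y ∈ U → A.1 v x = true →
      B.1 v x = false → A.1 v y = false → B.1 v y = true →
      ∑ z ∈ U, bi (A.1 x z) < ∑ z ∈ U, bi (A.1 y z) → g A = g B := by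
    intro A B x y hd hU hm hx hy h1 h2 h3 h4 h5
    obtain ⟨z, hz, h6, h7, h8⟩ := exists_z A hx hy h5
    have hvz : v ≠ z := fun h => hv (h ▸ hz)
    have hxs : x ∉ ({v, z} : Finset V) := by
      simp only [mem_insert, mem_singleton, not_or]
      exact ⟨fun h => hv (h ▸ hx), h6.symm⟩
    have hys : y ∉ ({v, z} : Finset V) := by
      simp only [mem_insert, mem_singleton, not_or]
      exact ⟨fun h => hv (h ▸ hy), fun h => by simp [h] at h7⟩
    have hxy : x ≠ y := fun h => by simp [h, h3] at h1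
    have hact : act v z x y A := by
      simp [act, h1, h3, A.symm z, h7, h8]
    rw [← hg v z x y ⟨hvz, hxy, hxs, hys⟩ A]
    refine ih _ ?_ _ B ((dg_sw hvz hxs hys A).trans hd) (fun a b ha => ?_) rfl
    · rw [← hm, sw, if_pos hact]
      refine card_lt_card ⟨fun d hd => ?_, fun hsub => ?_⟩
      · simp only [mem_filter, mem_univ, true_and, op_u hxs hys, Equiv.swap_apply_def] at hd ⊢
        split_ifs at hd with h9 h10
        · simp [h9, h1, h2]
        · simp [h10, h3, h4]
        · exact hd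
      · have := hsub (show x ∈ _ by simp [h1, h2])
        simp [op_u hxs hys, h2, h3] at this
    · simp only [mem_insert, not_or] at ha
      rw [sw, if_pos hact, op_of_notMem (by
          simp only [mem_insert, mem_singleton, not_or]
          exact ⟨ha.1, fun h => ha.2 (h ▸ hz)⟩),
        Equiv.swap_apply_of_ne_of_ne (show a ≠ x from fun h => ha.2 (h ▸ hx))
          (show a ≠ y from fun h => ha.2 (h ▸ hy)), ite_self]
      exact hU a b (by simp [ha.1, ha.2])
  have h5 := hres x
  have h6 := hres y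
  rw [h1, h2] at h5
  rw [h3, h4] at h6
  have e1 : bi true = 1 := rfl
  have e0 : bi false = 0 := rfl
  by_cases h7 : ∑ z ∈ U, bi (A.1 x z) < ∑ z ∈ U, bi (A.1 y z)
  · exact step A B x y hd hU hm hx hy h1 h2 h3 h4 h7
  · refine (step B A y x hd.symm (fun a b ha => (hU a b ha).symm) ?_ hy hx h4 h3 h2 h1
      (by linarith)).symm
    rw [← hm]
    simp only [ne_comm]

/-- spectral gap of the unnormalised switch Laplacian -/
theorem gap (g : Gr V → ℝ) (hg : CE dg g = 0) :
    8 * ip g g ≤ ∑ u, ∑ v, ∑ x, ∑ y, if valid u v x y then dd u v x y g else 0 := by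
  have hH : ∀ f : Gr V → ℝ, ip f (HH f) = ∑ u, ∑ v, ip (QQ u v f) (QQ u v f) := fun f => by
    simp only [HH, ip_sum_right, ip_QQ_self]
  have h1 : 4 * ip g g ≤ ip g (HH g) := by
    refine eigen_lemma dg HH (fun f g => ?_) (fun r f => ?_) (fun f g => ?_) 4 ?_ g hg
    · simp only [HH, ← sum_add_distrib]
      refine sum_congr rfl fun u _ => sum_congr rfl fun v _ => ?_
      unfold QQ
      split_ifs
      · simp
      · rw [CE_add]; abel
    · simp only [HH, smul_sum]
      refine sum_congr rfl fun u _ => sum_congr rfl fun v _ => ?_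
      unfold QQ
      split_ifs
      · simp
      · rw [CE_smul, smul_sub]
    · simp only [HH, ip_sum_left, ip_sum_right, ip_QQ]
    intro g μ hg0 hg hm
    have h2 : ∀ k, ip (HH g) (CE dg k) = 0 := by
      intro k
      simp only [HH, ip_sum_left]
      refine sum_eq_zero fun u _ => sum_eq_zero fun v _ => ?_
      unfold QQ
      split_ifs
      · simp
      · rw [ip_sub_left, ip_CE, CE_CE_of_le fun _ _ h => (kp_eq_iff.1 h).2, sub_self]
    have h3 : HH g = μ • g := by
      rw [← sub_eq_zero]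
      refine ip_self_eq_zero (le_of_eq ?_)
      conv_lhs => enter [2]; rw [← hm.CE_eq]
      rw [ip_sub_left, h2, ip_smul_left, ← ip_CE, hg]
      simp
    have hpos : 0 < ip g g := lt_of_not_ge fun h => hg0 (ip_self_eq_zero h)
    have h4 := bochner g
    have h5 := hH g
    rw [← h5, h3, ip_smul_left, ip_smul_right] at h4
    have h6 : 0 < μ := by
      by_contra hcon
      push Not at hcon
      have h7 : ∑ u, ∑ v, ip (QQ u v g) (QQ u v g) ≤ 0 := by
        rw [← h5, h3, ip_smul_right]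
        exact mul_nonpos_of_nonpos_of_nonneg hcon hpos.le
      refine hg0 ?_
      rw [← hg, (meas_dg fun u v x y h A => ?_).CE_eq]
      have h8 : QQ u v g = 0 := by
        refine ip_self_eq_zero (le_trans ?_ h7)
        refine le_trans ?_ (single_le_sum (f := fun u => ∑ v, ip (QQ u v g) (QQ u v g))
          (fun _ _ => sum_nonneg fun _ _ => ip_self_nonneg _) (mem_univ u))
        exact single_le_sum (f := fun v => ip (QQ u v g) (QQ u v g))
          (fun _ _ => ip_self_nonneg _) (mem_univ v)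
      rw [QQ_of_ne h.1, sub_eq_zero] at h8
      rw [h8]
      exact meas_CE _ _ _ _ (kp_sw h.1 h.2.2.1 h.2.2.2 A)
    have h7 : 4 * (μ * ip g g) ≤ μ * (μ * ip g g) := h4
    exact le_of_mul_le_mul_right h7 (mul_pos h6 hpos)
  have h2 : 2 * ip g (HH g) ≤ ∑ u, ∑ v, ∑ x, ∑ y, if valid u v x y then dd u v x y g else 0 := by
    simp only [hH, mul_sum]
    refine sum_le_sum fun u _ => sum_le_sum fun v _ => (johnson_QQ u v g).trans ?_
    refine sum_le_sum fun x _ => sum_le_sum fun y _ => ?_
    split_ifs with h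
    · rw [QQ_of_ne h.1, ip_jt h.1 h.2.2.1 h.2.2.2]
      linarith [nn_nonneg u v x y g]
    · exact le_rfl
  linarith

end Crest.Agent.R299
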