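import Mathlib
import Crest.Prelude.Def_SwitchChain
import Crest.Agent.R299.Chain

/-!
Basic facts on the switch kernel.
-/

set_option autoImplicit false

open Finset

namespace Crest.Agent.R299

open Crest.SwitchChain

variable {n : ℕ} {a b c d : Fin n} {S : Finset (Fin n)} {E E' F F' : Finset (Edge n)}

/-- the edge with two given endpoints -/
def ed (a b : Fin n) (h : a ≠ b) : Edge n := ⟨s(a, b), by simpa using h⟩

/-- a pair of edges -/
def pm (a b c d : Fin n) (hab : a ≠ b) (hcd : c ≠ d) : Finset (Edge n) := {ed a b hab, ed c d hcd}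

lemma mem_pm {hab : a ≠ b} {hcd : c ≠ d} {e : Edge n} :
    e ∈ pm a b c d hab hcd ↔ e.1 = s(a, b) ∨ e.1 = s(c, d) := by
  simp [pm, ed, Subtype.ext_iff]

lemma mem_pmSet : F ∈ pmSet S ↔ F.card = 2 ∧ (∀ e ∈ F, ∀ v : Fin n, v ∈ e.1 → v ∈ S) ∧
    ∀ v ∈ S, (F.filter fun e => v ∈ e.1).card = 1 := by
  simp [pmSet]

lemma pm_mem (hab : a ≠ b) (hac : a ≠ c) (had : a ≠ d) (hbc : b ≠ c) (hbd : b ≠ d) (hcd : c ≠ d)
    (hS : ∀ v, v ∈ S ↔ v = a ∨ v = b ∨ v = c ∨ v = d) : pm a b c d hab hcd ∈ pmSet S := by
  refine mem_pmSet.2 ⟨card_pair ?_, fun e he v hv => ?_, fun v hv => ?_⟩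
  · simp [ed, Subtype.ext_iff, hac, had]
  · rw [hS]
    rcases mem_pm.1 he with h | h <;> rw [h, Sym2.mem_iff] at hv <;> tauto
  · rw [pm, filter_insert, filter_singleton]
    rcases (hS v).1 hv with rfl | rfl | rfl | rfl <;>
      simp [ed, hac, had, hbc, hbd, hac.symm, had.symm, hbc.symm, hbd.symm]

lemma eq_pm (hF : F ∈ pmSet S) (hab : a ≠ b) (hcd : c ≠ d) (hac : a ≠ c) (had : a ≠ d)
    (hbc : b ≠ c) (hbd : b ≠ d) (hc : c ∈ S) (hd : d ∈ S) (he : ed a b hab ∈ F) :
    F = pm a b c d hab hcd := by
  obtain ⟨h1, -, h3⟩ := mem_pmSet.1 hF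
  obtain ⟨e', he', rfl⟩ : ∃ e', e' ≠ ed a b hab ∧ F = {ed a b hab, e'} := by
    obtain ⟨e1, e2, h4, rfl⟩ := card_eq_two.1 h1
    simp only [mem_insert, mem_singleton] at he
    rcases he with rfl | rfl
    · exact ⟨e2, h4.symm, rfl⟩
    · exact ⟨e1, h4, pair_comm _ _⟩
  have h4 : ∀ v ∈ S, v ≠ a → v ≠ b → v ∈ e'.1 := by
    intro v hv h5 h6
    by_contra h7
    have := h3 v hv
    rw [filter_insert, filter_singleton] at this
    simp [ed, h5, h6, h7] at this
  have h5 : e' = ed c d hcd := Subtype.ext
    ((Sym2.mem_and_mem_iff hcd).1 ⟨h4 c hc hac.symm hbc.symm, h4 d hd had.symm hbd.symm⟩)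
  rw [h5, pm]

lemma card_pmSet (hS : S.card = 4) : (pmSet S).card = 3 := by
  obtain ⟨a, b, c, d, hab, hac, had, hbc, hbd, hcd, rfl⟩ := card_eq_four.1 hS
  refine card_eq_three.2 ⟨pm a b c d hab hcd, pm a c b d hac hbd, pm a d b c had hbc, ?_, ?_, ?_, ?_⟩
  · intro h
    have : ed a b hab ∈ pm a c b d hac hbd := h ▸ mem_insert_self _ _
    simp [mem_pm, ed, hbc, hab, had, hac] at this
  · intro h
    have : ed a b hab ∈ pm a d b c had hbc := h ▸ mem_insert_self _ _
    simp [mem_pm, ed, hbd, hab, had, hac] at this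
  · intro h
    have : ed a c hac ∈ pm a d b c had hbc := h ▸ mem_insert_self _ _
    simp [mem_pm, ed, hcd, hab, had, hac] at this
  · ext F
    simp only [mem_insert, mem_singleton]
    constructor
    · intro hF
      obtain ⟨-, h2, h3⟩ := mem_pmSet.1 hF
      obtain ⟨e, he⟩ := card_pos.1 ((h3 a (by simp)).symm ▸ one_pos)
      obtain ⟨he1, he2⟩ := mem_filter.1 he
      obtain ⟨w, hw⟩ := Sym2.mem_iff_exists.1 he2
      have h4 := h2 e he1 w (by simp [hw])
      simp only [mem_insert, mem_singleton] at h4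
      rcases h4 with rfl | rfl | rfl | rfl
      · exact absurd (by simp [hw]) e.2
      · exact Or.inl (eq_pm hF hab hcd hac had hbc hbd (by simp) (by simp)
          (by rwa [show ed a w hab = e from Subtype.ext hw.symm]))
      · exact Or.inr (Or.inl (eq_pm hF hac hbd hab had hbc.symm hcd (by simp) (by simp)
          (by rwa [show ed a w hac = e from Subtype.ext hw.symm])))
      · exact Or.inr (Or.inr (eq_pm hF had hbc hab hac hbd.symm hcd.symm (by simp) (by simp)
          (by rwa [show ed a w had = e from Subtype.ext hw.symm])))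
    · rintro (rfl | rfl | rfl)
      · exact pm_mem hab hac had hbc hbd hcd (by simp)
      · exact pm_mem hac hab had hbc.symm hcd hbd (by simp; tauto)
      · exact pm_mem had hab hac hbd.symm hcd.symm hbc (by simp; tauto)

lemma switchResult_symm (hne : E ≠ E') (h : switchResult E F F' = E') :
    switchResult E' F' F = E := by
  unfold switchResult at h ⊢
  split_ifs at h with h1
  · subst h
    have h2 : Disjoint F F' := (h1.2.mono_right h1.1).symm
    rw [if_pos ⟨subset_union_right, disjoint_union_right.2 ⟨disjoint_sdiff, h2⟩⟩]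
    rw [union_sdiff_cancel_right (h1.2.mono_right sdiff_subset).symm, sdiff_union_of_subset h1.1]
  · exact absurd h hne

lemma proposalCount_symm (E E' : Finset (Edge n)) : proposalCount E E' = proposalCount E' E := by
  by_cases h : E = E'
  · rw [h]
  unfold proposalCount
  refine sum_congr rfl fun S _ => ?_
  rw [sum_comm' (t' := pmSet S) (s' := fun F' => (pmSet S).erase F')
    (by intro F F'; simp only [mem_erase]; tauto)]
  refine sum_congr rfl fun F _ => sum_congr rfl fun F' _ => ?_
  congr 1
  exact propext ⟨switchResult_symm h, switchResult_symm (Ne.symm h)⟩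

lemma sum_proposalCount (E : Finset (Edge n)) (φ : Finset (Edge n) → ℝ) :
    ∑ E', (proposalCount E E' : ℝ) * φ E' = ∑ S ∈ (univ : Finset (Fin n)).powersetCard 4,
      ∑ F ∈ pmSet S, ∑ F' ∈ (pmSet S).erase F, φ (switchResult E F F') := by
  unfold proposalCount
  push_cast
  simp only [sum_mul]
  rw [sum_comm]
  refine sum_congr rfl fun S _ => ?_
  rw [sum_comm]
  refine sum_congr rfl fun F _ => ?_
  rw [sum_comm]
  refine sum_congr rfl fun F' _ => ?_
  simp

lemma sum_proposalCount_one (E : Finset (Edge n)) :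
    ∑ E', (proposalCount E E' : ℝ) = 6 * n.choose 4 := by
  have := sum_proposalCount E fun _ => 1
  simp only [mul_one] at this
  rw [this, sum_congr rfl (g := fun _ => (6 : ℝ)) fun S hS => ?_]
  · simp [mul_comm]
  · have h := card_pmSet (mem_powersetCard.1 hS).2
    rw [sum_congr rfl (g := fun _ => (2 : ℝ)) fun F hF => by
      simp [card_erase_of_mem hF, h]]
    simp [h]
    norm_num

lemma deg_pm (hF : F ∈ pmSet S) (v : Fin n) : deg F v = if v ∈ S then 1 else 0 := by
  obtain ⟨-, h2, h3⟩ := mem_pmSet.1 hF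
  unfold deg
  split_ifs with h
  · exact h3 v h
  · rw [card_eq_zero, filter_eq_empty_iff]
    exact fun e he hv => h (h2 e he v hv)

lemma deg_switchResult (hF : F ∈ pmSet S) (hF' : F' ∈ pmSet S) (E : Finset (Edge n)) (v : Fin n) :
    deg (switchResult E F F') v = deg E v := by
  unfold switchResult
  split_ifs with h
  · have h1 : deg (E \ F ∪ F') v = deg (E \ F) v + deg F' v := by
      unfold deg
      rw [filter_union, card_union_of_disjoint
        (disjoint_filter_filter (h.2.mono_right sdiff_subset).symm)]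
    have h2 : deg E v = deg (E \ F) v + deg F v := by
      unfold deg
      rw [← card_union_of_disjoint (disjoint_filter_filter sdiff_disjoint), ← filter_union,
        sdiff_union_of_subset h.1]
    rw [h1, h2, deg_pm hF, deg_pm hF']
  · rfl

lemma switchResult_mem {d : Fin n → ℕ} (hF : F ∈ pmSet S) (hF' : F' ∈ pmSet S) :
    switchResult E F F' ∈ realizations d ↔ E ∈ realizations d := by
  simp [realizations, deg_switchResult hF hF']

lemma proposalCount_eq_zero {d : Fin n → ℕ} (hE : E ∈ realizations d)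
    (hE' : E' ∉ realizations d) : proposalCount E E' = 0 := by
  refine sum_eq_zero fun S _ => sum_eq_zero fun F hF => sum_eq_zero fun F' hF' => if_neg ?_
  rintro rfl
  exact hE' ((switchResult_mem hF (mem_of_mem_erase hF')).2 hE)

lemma lazy_kernel (hn : 4 ≤ n) (d : Fin n → ℕ) : Lazy (kernel n) (realizations d) := by
  have hC : (0 : ℝ) < n.choose 4 := by exact_mod_cast Nat.choose_pos hn
  refine ⟨fun E E' => ?_, fun E E' => ?_, fun E => ?_, fun E hE E' hE' => ?_⟩
  · simp only [kernel, proposalCount_symm E E', eq_comm (a := E)]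
  · simp only [kernel, le_add_iff_nonneg_right]
    positivity
  · simp only [kernel, sum_add_distrib, sum_ite_eq, mem_univ, if_true, ← sum_div,
      sum_proposalCount_one]
    field_simp
    norm_num
  · simp only [kernel, proposalCount_eq_zero hE hE', if_neg (show E ≠ E' from fun h => hE' (h ▸ hE))]
    simp

/-- total squared variation over all proposals on `S` -/
noncomputable def tot (d : Fin n → ℕ) (f : Finset (Edge n) → ℝ) (S : Finset (Fin n)) : ℝ :=
  ∑ F ∈ pmSet S, ∑ F' ∈ (pmSet S).erase F,
    ∑ E ∈ realizations d, (f E - f (switchResult E F F')) ^ 2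

lemma dirichlet_eq (hn : 4 ≤ n) (d : Fin n → ℕ) (f : Finset (Edge n) → ℝ) :
    24 * (n.choose 4 : ℝ) * ∑ E ∈ realizations d,
      f E * (f E - ∑ E' ∈ realizations d, kernel n E E' * f E') =
      ∑ S ∈ (univ : Finset (Fin n)).powersetCard 4, tot d f S := by
  have hC : (0 : ℝ) < n.choose 4 := by exact_mod_cast Nat.choose_pos hn
  rw [(lazy_kernel hn d).dirichlet]
  have h1 : ∀ E ∈ realizations d, ∑ E' ∈ realizations d, kernel n E E' * (f E - f E') ^ 2 =
      (∑ E', (proposalCount E E' : ℝ) * (f E - f E') ^ 2) / (12 * n.choose 4) := by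
    intro E hE
    rw [← sum_subset (subset_univ (realizations d)) fun E' _ hE' => by
      simp [proposalCount_eq_zero hE hE'], sum_div]
    refine sum_congr rfl fun E' _ => ?_
    unfold kernel
    split_ifs with h
    · simp [h]
    · ring
  rw [sum_congr rfl h1, ← sum_div]
  simp only [sum_proposalCount]
  rw [sum_comm]
  have h2 : ∀ S, tot d f S = ∑ E ∈ realizations d, ∑ F ∈ pmSet S, ∑ F' ∈ (pmSet S).erase F,
      (f E - f (switchResult E F F')) ^ 2 := fun S => by
    rw [tot, sum_comm (s := realizations d)]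
    exact sum_congr rfl fun F _ => sum_comm
  simp only [h2]
  field_simp
  ring

end Crest.Agent.R299
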