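import Mathlib
import Crest.Agent.R299.Switch
import Crest.Agent.R299.Global

/-!
Transfer of the spectral gap to the edge-set model.
-/

set_option autoImplicit false

open Finset

namespace Crest.Agent.R299

open Crest.SwitchChain

variable {n : ℕ} {u v x y : Fin n}

/-- edge set of a Boolean matrix -/
def ofGr : Gr (Fin n) ≃ Finset (Edge n) where
  toFun A := univ.filter fun e => Sym2.lift ⟨A.1, A.symm⟩ e.1 = true
  invFun E := ⟨fun a b => decide (s(a, b) ∈ E.image Subtype.val), fun a b => by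
    rw [Sym2.eq_swap], fun a => by
      simp only [decide_eq_false_iff_not, mem_image, not_exists, not_and]
      intro e _ h
      exact e.2 (by simp [h])⟩
  left_inv A := by
    refine Gr.ext fun a b => ?_
    by_cases h : a = b
    · simp [h]
    · rw [Bool.eq_iff_iff]
      simp [h]
  right_inv E := by
    ext ⟨e, he⟩
    induction e using Sym2.ind with
    | _ a b =>
      have : ¬ a = b := by simpa using he
      simp [this]

lemma mem_ofGr (A : Gr (Fin n)) {a b : Fin n} (h : ¬ (s(a, b) : Sym2 (Fin n)).IsDiag) :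
    (⟨s(a, b), h⟩ : Edge n) ∈ ofGr A ↔ A.1 a b = true := by
  simp [ofGr]

lemma deg_ofGr (A : Gr (Fin n)) (v : Fin n) : (deg (ofGr A) v : ℤ) = dg A v := by
  have h1 : dg A v = ((univ.filter fun b => A.1 v b = true).card : ℤ) := by
    simp [dg, bi]
  rw [h1, deg]
  congr 1
  symm
  refine card_bij (fun b hb => ⟨s(v, b), by
    rw [Sym2.mk_isDiag_iff]
    rintro rfl
    simp at hb⟩) (fun b hb => ?_) (fun b hb b' hb' h => ?_) fun e he => ?_
  · simpa [mem_ofGr] using hb
  · exact Sym2.congr_right.1 (congrArg Subtype.val h)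
  · obtain ⟨h2, h3⟩ := mem_filter.1 he
    obtain ⟨e, he'⟩ := e
    obtain ⟨w, rfl⟩ := Sym2.mem_iff_exists.1 h3
    exact ⟨w, by simpa [mem_ofGr] using h2, rfl⟩

lemma ofGr_mem {d : Fin n → ℕ} {A : Gr (Fin n)} :
    ofGr A ∈ realizations d ↔ dg A = fun v => (d v : ℤ) := by
  simp only [realizations, mem_filter, mem_univ, true_and, funext_iff, ← deg_ofGr, Nat.cast_inj]

lemma valid.ne (h : valid u v x y) : u ≠ x ∧ u ≠ y ∧ v ≠ x ∧ v ≠ y := by
  obtain ⟨-, -, h1, h2⟩ := h
  simp only [mem_insert, mem_singleton, not_or] at h1 h2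
  exact ⟨Ne.symm h1.1, Ne.symm h2.1, Ne.symm h1.2, Ne.symm h2.2⟩

lemma valid.swap (h : valid u v x y) : valid u v y x := ⟨h.1, h.2.1.symm, h.2.2.2, h.2.2.1⟩

lemma ofGr_op (h : valid u v x y) {A : Gr (Fin n)} (hA : act u v x y A) (hx : A.1 u x = true) :
    ofGr (op {u, v} x y A) =
      switchResult (ofGr A) (pm u x v y h.ne.1 h.ne.2.2.2) (pm u y v x h.ne.2.1 h.ne.2.2.1) := by
  obtain ⟨h1, h2, h3, h4⟩ := h.ne
  obtain ⟨h5, h6, h7, h8⟩ := h
  have hvy : A.1 v y = true := hA.1 ▸ hx
  have huy : A.1 u y = false := by simpa [hx] using hA.2.2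
  have hvx : A.1 v x = false := hA.2.1 ▸ huy
  rw [switchResult, if_pos]
  · let B : Gr (Fin n) := ⟨fun a b => decide ((A.1 a b = true ∧
        ¬ (s(a, b) = s(u, x) ∨ s(a, b) = s(v, y))) ∨ (s(a, b) = s(u, y) ∨ s(a, b) = s(v, x))),
      fun a b => by rw [A.symm a b, Sym2.eq_swap (a := a)], fun a => by
        simp only [A.irr, Sym2.eq_iff]
        simp only [decide_eq_false_iff_not]
        rintro (h | (h | h) | (h | h))
        · simp at h
        · exact h2 (h.1.symm.trans h.2)
        · exact h2 (h.2.symm.trans h.1)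
        · exact h3 (h.1.symm.trans h.2)
        · exact h3 (h.2.symm.trans h.1)⟩
    have hB : op {u, v} x y A = B := by
      refine Gr.ext_of {u, v} (fun a ha b => ?_) fun a b ha hb => ?_
      · rw [op_of_mem h7 h8 ha, Equiv.swap_apply_def, Bool.eq_iff_iff]
        simp only [mem_insert, mem_singleton] at ha
        rcases ha with rfl | rfl <;> split_ifs with h9 h10 <;>
          simp [B, *, h1.symm, h2.symm, h3.symm, h4.symm, h5.symm, h6.symm]
      · rw [op_of_not ha hb, Bool.eq_iff_iff]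
        simp only [mem_insert, mem_singleton, not_or] at ha hb
        simp [B, ha, hb]
    rw [hB]
    ext ⟨e, he⟩
    induction e using Sym2.ind with
    | _ a b => simp only [mem_union, mem_sdiff, mem_pm, mem_ofGr, B, decide_eq_true_eq]
  · constructor
    · intro e he
      simp only [pm, mem_insert, mem_singleton] at he
      rcases he with rfl | rfl <;> simp [ed, mem_ofGr, hx, hvy]
    · rw [disjoint_left]
      intro e he
      simp only [pm, mem_insert, mem_singleton] at he
      rcases he with rfl | rfl <;> simp [ed, mem_ofGr, huy, hvx]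

lemma le_tot (d : Fin n → ℕ) (f : Finset (Edge n) → ℝ) (h : valid u v x y) :
    ∑ E ∈ realizations d, (f E - f (switchResult E (pm u x v y h.ne.1 h.ne.2.2.2)
      (pm u y v x h.ne.2.1 h.ne.2.2.1))) ^ 2 ≤ tot d f {u, v, x, y} := by
  obtain ⟨h1, h2, h3, h4⟩ := h.ne
  have h5 := h.1
  have h6 := h.2.1
  have hF : pm u x v y h1 h4 ∈ pmSet {u, v, x, y} :=
    pm_mem h1 h5 h2 h3.symm h6 h4 (by simp; tauto)
  have hF' : pm u y v x h2 h3 ∈ (pmSet {u, v, x, y}).erase (pm u x v y h1 h4) := by
    refine mem_erase.2 ⟨fun h => ?_, pm_mem h2 h5 h1 h4.symm h6.symm h3 (by simp; tauto)⟩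
    have : ed u y h2 ∈ pm u x v y h1 h4 := h ▸ mem_insert_self _ _
    simp [mem_pm, ed, h1, h2, h5, h6.symm] at this
  refine le_trans ?_ (single_le_sum (f := fun F => ∑ F' ∈ (pmSet {u, v, x, y}).erase F,
    ∑ E ∈ realizations d, (f E - f (switchResult E F F')) ^ 2)
    (fun _ _ => sum_nonneg fun _ _ => sum_nonneg fun _ _ => sq_nonneg _) hF)
  exact single_le_sum (f := fun F' => ∑ E ∈ realizations d,
    (f E - f (switchResult E (pm u x v y h1 h4) F')) ^ 2)
    (fun _ _ => sum_nonneg fun _ _ => sq_nonneg _) hF'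

lemma tot_nonneg (d : Fin n → ℕ) (f : Finset (Edge n) → ℝ) (S : Finset (Fin n)) : 0 ≤ tot d f S :=
  sum_nonneg fun _ _ => sum_nonneg fun _ _ => sum_nonneg fun _ _ => sq_nonneg _

lemma sum_ofGr (d : Fin n → ℕ) (φ : Finset (Edge n) → ℝ) :
    ∑ A, (if ofGr A ∈ realizations d then φ (ofGr A) else 0) = ∑ E ∈ realizations d, φ E := by
  rw [ofGr.sum_comp fun E => if E ∈ realizations d then φ E else 0, Finset.sum_ite_mem_eq]

lemma dd_le (d : Fin n → ℕ) (f : Finset (Edge n) → ℝ) (m : ℝ) (h : valid u v x y) :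
    dd u v x y (fun A => if ofGr A ∈ realizations d then f (ofGr A) - m else 0) ≤
      tot d f {u, v, x, y} / 2 := by
  have h1 := le_tot d f h
  have h2 := le_tot d f h.swap
  rw [pair_comm y x, ← sum_ofGr] at h2
  rw [← sum_ofGr] at h1
  refine le_trans ?_ ((div_le_div_of_nonneg_right (add_le_add h1 h2) (by norm_num : (0 : ℝ) ≤ 4)).trans
    (le_of_eq (by ring)))
  rw [← sum_add_distrib, sum_div]
  refine sum_le_sum fun A _ => ?_
  have h3 : ofGr (sw u v x y A) ∈ realizations d ↔ ofGr A ∈ realizations d := by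
    rw [ofGr_mem, ofGr_mem, dg_sw h.1 h.2.2.1 h.2.2.2]
  simp only [h3]
  split_ifs with h4
  · unfold sw
    split_ifs with h5
    · cases h6 : A.1 u x
      · have h7 : A.1 u y = true := by simpa [h6] using h5.2.2
        rw [op_comm, ofGr_op h.swap (act_swap.1 h5) h7]
        nlinarith [sq_nonneg (f (ofGr A) - f (switchResult (ofGr A)
          (pm u x v y h.ne.1 h.ne.2.2.2) (pm u y v x h.ne.2.1 h.ne.2.2.1)))]
      · rw [ofGr_op h h5 h6]
        nlinarith [sq_nonneg (f (ofGr A) - f (switchResult (ofGr A)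
          (pm u y v x h.ne.2.1 h.ne.2.2.1) (pm u x v y h.ne.1 h.ne.2.2.2)))]
    · simp only [sub_self, zero_div, mul_zero]
      positivity
  · simp

lemma sum_quads (T : Finset (Fin n) → ℝ) (hT : ∀ S, 0 ≤ T S) :
    (∑ u, ∑ v, ∑ x, ∑ y, if valid u v x y then T {u, v, x, y} else 0) ≤
      256 * ∑ S ∈ (univ : Finset (Fin n)).powersetCard 4, T S := by
  have h1 : ∀ u v x y, (if valid u v x y then T {u, v, x, y} else 0) ≤
      ∑ S ∈ (univ : Finset (Fin n)).powersetCard 4,
        if u ∈ S then if v ∈ S then if x ∈ S then if y ∈ S then T S else 0 else 0 else 0 else 0 := by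
    intro u v x y
    have h0 : ∀ S ∈ (univ : Finset (Fin n)).powersetCard 4, 0 ≤
        if u ∈ S then if v ∈ S then if x ∈ S then if y ∈ S then T S else 0 else 0 else 0 else 0 :=
      fun S _ => by split_ifs <;> simp [hT]
    split_ifs with h
    · refine le_trans (le_of_eq ?_) (single_le_sum h0 (a := {u, v, x, y}) ?_)
      · simp
      · obtain ⟨h1, h2, h3, h4⟩ := h.ne
        exact mem_powersetCard.2 ⟨subset_univ _,
          card_eq_four.2 ⟨u, v, x, y, h.1, h1, h2, h3, h4, h.2.1, rfl⟩⟩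
    · exact sum_nonneg h0
  refine le_trans (sum_le_sum fun u _ => sum_le_sum fun v _ => sum_le_sum fun x _ =>
    sum_le_sum fun y _ => h1 u v x y) (le_of_eq ?_)
  simp only [sum_comm (t := (univ : Finset (Fin n)).powersetCard 4)]
  rw [mul_sum]
  refine sum_congr rfl fun S hS => ?_
  simp only [sum_ite_irrel, sum_const_zero, Finset.sum_ite_mem_eq, sum_const,
    (mem_powersetCard.1 hS).2, nsmul_eq_mul]
  ring

theorem poincare (hn : 4 ≤ n) (d : Fin n → ℕ) (hd : (realizations d).Nonempty)
    (f : Finset (Edge n) → ℝ) :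
    ((realizations d).card : ℝ) * (∑ G ∈ realizations d, f G ^ 2) -
        (∑ G ∈ realizations d, f G) ^ 2 ≤
      24 * (n : ℝ) ^ 2 * (n.choose 4 : ℝ) * (realizations d).card *
        ∑ G ∈ realizations d, f G * (f G - ∑ G' ∈ realizations d, kernel n G G' * f G') := by
  have hΩ : (0 : ℝ) < (realizations d).card := by exact_mod_cast card_pos.2 hd
  set m := (∑ G ∈ realizations d, f G) / (realizations d).card with hm
  set g : Gr (Fin n) → ℝ := fun A => if ofGr A ∈ realizations d then f (ofGr A) - m else 0 with hg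
  have hg0 : CE dg g = 0 := by
    funext A
    by_cases hA : ofGr A ∈ realizations d
    · have h1 : ∑ B ∈ fib dg A, g B = ∑ B, g B := by
        refine sum_subset (subset_univ _) fun B _ hB => if_neg fun h => hB ?_
        rw [mem_fib, ofGr_mem.1 h, ofGr_mem.1 hA]
      rw [CE, h1, hg, sum_ofGr d fun E => f E - m, sum_sub_distrib, sum_const, nsmul_eq_mul, hm]
      field_simp
      simp
    · rw [CE_congr (g := fun _ => 0) fun B hB => if_neg fun h => hA (by
        rw [ofGr_mem, ← hB, ofGr_mem.1 h]), CE_const]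
      rfl
  have h1 := gap g hg0
  have h2 : ip g g = ∑ E ∈ realizations d, (f E - m) ^ 2 := by
    rw [← sum_ofGr]
    refine sum_congr rfl fun A _ => ?_
    simp only [hg]
    split_ifs
    · ring
    · simp
  have h3 : (∑ u, ∑ v, ∑ x, ∑ y, if valid u v x y then dd u v x y g else 0) ≤
      ∑ u, ∑ v, ∑ x, ∑ y, if valid u v x y then tot d f {u, v, x, y} / 2 else 0 := by
    refine sum_le_sum fun u _ => sum_le_sum fun v _ => sum_le_sum fun x _ =>
      sum_le_sum fun y _ => ?_
    split_ifs with h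
    · exact dd_le d f m h
    · exact le_rfl
  have h4 := sum_quads (fun S => tot d f S / 2) fun S => by linarith [tot_nonneg d f S]
  rw [← sum_div] at h4
  have h5 := dirichlet_eq hn d f
  have h6 : 0 ≤ ∑ S ∈ (univ : Finset (Fin n)).powersetCard 4, tot d f S :=
    sum_nonneg fun S _ => tot_nonneg d f S
  have h7 : ((realizations d).card : ℝ) * (∑ G ∈ realizations d, f G ^ 2) -
      (∑ G ∈ realizations d, f G) ^ 2 =
      (realizations d).card * ∑ E ∈ realizations d, (f E - m) ^ 2 := by
    simp only [sub_sq, sum_add_distrib, sum_sub_distrib, sum_const, nsmul_eq_mul, ← sum_mul,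
      ← mul_sum, hm]
    field_simp
    ring
  have h8 : (16 : ℝ) ≤ (n : ℝ) ^ 2 := by
    have : (4 : ℝ) ≤ n := by exact_mod_cast hn
    nlinarith
  have h9 : ∑ E ∈ realizations d, (f E - m) ^ 2 ≤
      (n : ℝ) ^ 2 * ∑ S ∈ (univ : Finset (Fin n)).powersetCard 4, tot d f S := by
    nlinarith
  rw [h7]
  calc _ ≤ (realizations d).card *
        ((n : ℝ) ^ 2 * ∑ S ∈ (univ : Finset (Fin n)).powersetCard 4, tot d f S) :=
        mul_le_mul_of_nonneg_left h9 hΩ.le
    _ = _ := by rw [← h5]; ring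

end Crest.Agent.R299
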